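import Vale.Agent.P091Q.Stm
import Vale.Agent.P091K.AtNum

namespace Vale.Agent.P091Q

open MeasureTheory Real Filter Topology Vale.Agent.P091 Vale.Agent.P091K

namespace AtNum2Aux

theorem mm_le (D W i : ℕ) (ω : ℕ × ℕ → ℕ) (hω : ∀ k a, k ≤ D → ω (k, a) < W) (j : ℕ) :
    MM D (5 * D + 2 + i) ω j + (2 ^ D) ^ 2 * 2 ^ i ≤ 2 ^ (6 * D + 3 + W + i) := by
  unfold MM
  have h1 : ∑ k ∈ Finset.Icc 1 D, 2 ^ (5 * D + 2 + i + ω (k, j / 2 ^ k)) ≤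
      (Finset.Icc 1 D).card • 2 ^ (5 * D + 2 + i + W) := by
    refine Finset.sum_le_card_nsmul _ _ _ fun k hk => ?_
    exact Nat.pow_le_pow_right (by norm_num)
      (by have := hω k (j / 2 ^ k) (Finset.mem_Icc.1 hk).2; omega)
  rw [Nat.card_Icc, smul_eq_mul] at h1
  have h2 : D + 1 - 1 ≤ 2 ^ D := by
    have := @Nat.lt_two_pow_self D
    omega
  have h3 : (D + 1 - 1) * 2 ^ (5 * D + 2 + i + W) ≤ 2 ^ D * 2 ^ (5 * D + 2 + i + W) :=
    Nat.mul_le_mul_right _ h2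
  rw [← pow_add, show D + (5 * D + 2 + i + W) = 6 * D + 2 + W + i by ring] at h3
  have h4 : (2 ^ D) ^ 2 * 2 ^ i ≤ 2 ^ (6 * D + 2 + W + i) := by
    rw [← pow_mul, ← pow_add]
    exact Nat.pow_le_pow_right (by norm_num) (by omega)
  rw [show 6 * D + 3 + W + i = 6 * D + 2 + W + i + 1 by ring, pow_succ 2 (6 * D + 2 + W + i)]
  omega

theorem ss_le (D i : ℕ) (ω : ℕ × ℕ → ℕ) (j : ℕ) :
    |ss D (5 * D + 2 + i) ω j| ≤ 1 / (8 * ((2 : ℝ) ^ D) ^ 4 * 2 ^ i) := by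
  unfold ss
  have h1 : |∑ k ∈ Finset.Icc 1 D,
      ((bit (k - 1) j : ℝ) - (bit k j : ℝ)) / 2 ^ (5 * D + 2 + i + ω (k, j / 2 ^ k))| ≤
      (Finset.Icc 1 D).card • ((1 : ℝ) / 2 ^ (5 * D + 2 + i)) := by
    refine (Finset.abs_sum_le_sum_abs _ _).trans ?_
    refine Finset.sum_le_card_nsmul _ _ _ fun k _ => ?_
    rw [abs_div, abs_of_pos (by positivity : (0 : ℝ) < 2 ^ (5 * D + 2 + i + ω (k, j / 2 ^ k)))]
    have ha := AtNumAux.bit_le (k - 1) j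
    have hb := AtNumAux.bit_le k j
    refine div_le_div₀ (by norm_num) (abs_le.2 ⟨by linarith, by linarith⟩) (by positivity) ?_
    exact pow_le_pow_right₀ (by norm_num) (by omega)
  rw [Nat.card_Icc, nsmul_eq_mul] at h1
  have h2 : ((D + 1 - 1 : ℕ) : ℝ) ≤ 2 ^ D := by
    have : D + 1 - 1 ≤ 2 ^ D := by
      have := @Nat.lt_two_pow_self D
      omega
    exact_mod_cast this
  have h3 : ((D + 1 - 1 : ℕ) : ℝ) * ((1 : ℝ) / 2 ^ (5 * D + 2 + i)) ≤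
      2 * (1 / (8 * ((2 : ℝ) ^ D) ^ 4 * 2 ^ i)) := by
    calc ((D + 1 - 1 : ℕ) : ℝ) * ((1 : ℝ) / 2 ^ (5 * D + 2 + i))
        ≤ 2 ^ D * ((1 : ℝ) / 2 ^ (5 * D + 2 + i)) :=
          mul_le_mul_of_nonneg_right h2 (by positivity)
      _ = _ := by
        rw [pow_add, pow_add, mul_comm 5 D, pow_mul]
        have h0 : (0 : ℝ) < 2 ^ D := by positivity
        have h0' : (0 : ℝ) < 2 ^ i := by positivity
        generalize (2 : ℝ) ^ D = t at h0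
        generalize (2 : ℝ) ^ i = u at h0'
        field_simp
        norm_num
  rw [abs_mul, abs_of_pos (by norm_num : (0 : ℝ) < 1 / 2)]
  linarith

theorem last (R D W i : ℕ) (hR : 1 ≤ R) (h : (7 * D + 5 + W) * R ≤ 16000000 * D ^ 2)
    (hi : i * R ≤ D ^ 2) :
    2 * ((2 * (2 ^ D * 2 ^ (6 * D + 3 + W + i)) : ℕ) : ℝ) ≤
      Real.exp (25000000 * (D : ℝ) ^ 2 / R) := by
  have h1 : 2 * ((2 * (2 ^ D * 2 ^ (6 * D + 3 + W + i)) : ℕ) : ℝ) =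
      ((2 ^ (7 * D + 5 + W + i) : ℕ) : ℝ) := by
    rw [show 7 * D + 5 + W + i = D + (6 * D + 3 + W + i) + 1 + 1 by ring, pow_succ, pow_succ,
      pow_add 2 D]
    push_cast
    ring
  rw [h1]
  refine (AtNumAux.two_pow _).trans (Real.exp_le_exp.2 ?_)
  have hR' : (0 : ℝ) < R := by exact_mod_cast hR
  rw [le_div_iff₀ hR']
  have h2 : (7 * D + 5 + W + i) * R ≤ 25000000 * D ^ 2 := by
    rw [add_mul (7 * D + 5 + W)]
    omega
  exact_mod_cast h2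

end AtNum2Aux

theorem atNum2_pf : AtNum2Stmt := fun R K D i ω hR hD hRK hi hω =>
  ⟨AtNum2Aux.mm_le D _ i ω hω,
    fun _ => Finset.dvd_sum fun _ _ => pow_dvd_pow _ (Nat.le_add_right _ _),
    AtNum2Aux.ss_le D i ω, AtNum2Aux.last R D _ i hR (AtNumAux.arith R K D hD hRK) hi⟩

end Vale.Agent.P091Q
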