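import Vale.Agent.P091Q.Stm

namespace Vale.Agent.P091Q

open MeasureTheory Real Filter Topology Vale.Agent.P091 Vale.Agent.P091K

namespace AtomK2Aux

theorem win {n X M t I : ℤ} (hn : 1 ≤ n) (hI : 1 ≤ I) (hX : 2 * (n ^ 3 * I) ≤ X) (hM0 : 0 ≤ M)
    (hM : M + n ^ 2 * I ≤ X) (ht : |t| ≤ n ^ 2 * I) :
    0 ≤ n * X + n * (M + t) ∧ 2 * (n * X) ≤ 4 * (n * X + n * (M + t)) ∧
      n * X + n * (M + t) ≤ 2 * (n * X) := by
  obtain ⟨t1, t2⟩ := abs_le.mp ht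
  have h1 : n ^ 2 * I ≤ n ^ 3 * I :=
    mul_le_mul_of_nonneg_right (pow_le_pow_right₀ hn (by norm_num)) (by omega)
  have h2 : 0 ≤ n ^ 2 * I := mul_nonneg (sq_nonneg n) (by omega)
  have h3 : 0 ≤ n * (X + 2 * (M + t)) := mul_nonneg (by omega) (by linarith)
  have h4 : 0 ≤ n * (X - (M + t)) := mul_nonneg (by omega) (by linarith)
  have h5 : 0 ≤ n * X := mul_nonneg (by omega) (by linarith)
  refine ⟨by linarith, by linarith, by linarith⟩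

theorem ends {n X M I : ℤ} (hn : 1 ≤ n) (hI : 1 ≤ I) (hX : 2 * (n ^ 3 * I) ≤ X) (hM0 : 0 ≤ M)
    (hM : M + n ^ 2 * I ≤ X) :
    n ^ 3 * I ≤ n * X + n * M ∧ n * X + n * M + n ^ 3 * I ≤ 2 * (2 * (n * X)) := by
  have h0 : 0 ≤ n ^ 3 * I := by positivity
  have h1 : 0 ≤ (n - 1) * X := mul_nonneg (by omega) (by linarith)
  have h2 : 0 ≤ n * M := mul_nonneg (by omega) hM0
  have h3 : 0 ≤ n * (X - (M + n ^ 2 * I)) := mul_nonneg (by omega) (by linarith)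
  constructor <;> linarith

theorem sep {n W A a b V : ℤ} (hn : 1 ≤ n) (hW : V ≤ W) (ha : W ∣ a) (hb : W ∣ b)
    (h : A + n * a ≠ A + n * b) : V ≤ |A + n * a - (A + n * b)| := by
  have h1 : a - b ≠ 0 := fun e => h (by rw [sub_eq_zero.mp e])
  have h2 : W ≤ |a - b| := Int.le_of_dvd (abs_pos.mpr h1) ((dvd_abs _ _).mpr (ha.sub hb))
  have h3 : A + n * a - (A + n * b) = n * (a - b) := by ring
  rw [h3, abs_mul, abs_of_nonneg (by omega : 0 ≤ n)]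
  have h4 : 0 ≤ (n - 1) * |a - b| := mul_nonneg (by omega) (abs_nonneg _)
  linarith

theorem cube {D e : ℕ} (i : ℕ) (h : 3 * D + 1 ≤ e) : 2 * ((2 ^ D) ^ 3 * 2 ^ i) ≤ 2 ^ (e + i) := by
  rw [← pow_mul, ← pow_add, ← pow_succ']
  exact Nat.pow_le_pow_right (by norm_num) (by omega)

theorem top (D e i : ℕ) : 2 * (2 * (2 ^ D * 2 ^ (e + i))) + 2 ≤ 2 ^ (D + e + i + 3) := by
  have h : 0 < 2 ^ (D + (e + i)) := Nat.two_pow_pos _
  rw [← pow_add, add_assoc D e i, pow_add 2 (D + (e + i)) 3]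
  omega

theorem four {n X I : ℕ} (hI : 0 < I) (h : 2 * (n ^ 3 * I) ≤ X) : 4 * n ^ 4 ≤ 2 * (n * X) := by
  have h1 : n ^ 3 ≤ n ^ 3 * I := Nat.le_mul_of_pos_right _ hI
  have h2 : n * (2 * n ^ 3) ≤ n * X := Nat.mul_le_mul_left _ (by omega)
  linarith

theorem small {n X I : ℕ} (hn : 0 < n) (h : 2 * (n ^ 3 * I) ≤ X) : I ≤ 2 * (n * X) := by
  have h1 : I ≤ n ^ 3 * I := Nat.le_mul_of_pos_left _ (by positivity)
  have h2 : X ≤ n * X := Nat.le_mul_of_pos_left _ hn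
  omega

end AtomK2Aux

open AtomK2Aux

theorem atomK2_pf (h1 : CanAStmt) (h2 : CanSStmt) (h3 : ErrKStmt) (h4 : GkNStmt) (h5 : LowK2Stmt)
    (h6 : PAvgStmt) (h7 : AtNum2Stmt) (h8 : GkMStmt) : AtomK2Stmt := by
  intro R K i hR hRK hi
  obtain ⟨c1, c2⟩ := h1 R K hR (hR.trans hRK)
  obtain ⟨ω, w1, w2⟩ := h3 R K (5 * DD R K + 2 + i) (CC R K) hRK ⟨c1, c2, h2 R K⟩
  have hD : 4 ≤ DD R K := by
    have : 1 * 2 ≤ R * (K + 1) := Nat.mul_le_mul hR (by omega)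
    unfold DD
    omega
  obtain ⟨n1, n2, n3, n4⟩ := h7 R K (DD R K) i ω hR hD (by unfold DD; omega) hi w1
  have hX : 2 * ((2 ^ DD R K) ^ 3 * 2 ^ i) ≤ 2 ^ (Ex K (DD R K) + i) :=
    cube i (by unfold Ex; omega)
  have hW : 2 * ((2 ^ DD R K) ^ 3 * 2 ^ i) ≤ 2 ^ (5 * DD R K + 2 + i) := cube i (by omega)
  have hZ := top (DD R K) (Ex K (DD R K)) i
  generalize CC R K = C at c1 c2 w2
  generalize DD R K = D at *
  generalize D + Ex K D + i + 3 = Z at hZ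
  generalize 2 ^ (Ex K D + i) = X at n1 n4 hX hZ
  generalize MM D (5 * D + 2 + i) ω = M at n1 n2 w2
  generalize ss D (5 * D + 2 + i) ω = s at n3 w2
  have hn : 0 < 2 ^ D := Nat.two_pow_pos D
  have hc : 0 < C.card := by
    rcases Nat.eq_zero_or_pos C.card with h | h
    · rw [h] at c1
      omega
    · exact h
  have hX0 : 0 < X := lt_of_lt_of_le (by positivity) hX
  have hnZ : (1 : ℤ) ≤ 2 ^ D := one_le_pow₀ (by norm_num)
  have hiZ : (1 : ℤ) ≤ 2 ^ i := one_le_pow₀ (by norm_num)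
  have hXZ : 2 * (((2 : ℤ) ^ D) ^ 3 * 2 ^ i) ≤ X := by exact_mod_cast hX
  have hWZ : 2 * (((2 : ℤ) ^ D) ^ 3 * 2 ^ i) ≤ 2 ^ (5 * D + 2 + i) := by exact_mod_cast hW
  have hMZ : ∀ j, (M j : ℤ) + (2 ^ D) ^ 2 * 2 ^ i ≤ X := fun j => by exact_mod_cast n1 j
  have hp : 1 ≤ 2 * (2 ^ D * X) := by have := Nat.mul_pos hn hX0; omega
  obtain ⟨g1, g2, g3⟩ := h4 (2 * (2 ^ D * X)) (2 ^ D * X) C (fun j => 2 * π * (j + s j) / 2 ^ D)
    hp (Finset.card_pos.mp hc)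
  have g4 := h8 (2 * (2 ^ D * X)) (2 ^ D * X) C (fun j => 2 * π * (j + s j) / 2 ^ D)
    hp (Finset.card_pos.mp hc)
  obtain ⟨p1, p2⟩ := h6 R D C (by omega) c1 fun j hj => by have := (c2 j hj).2; omega
  refine ⟨⟨gk (2 * (2 ^ D * X)) (2 ^ D * X) C (fun j => 2 * π * (j + s j) / 2 ^ D),
    fun j => 2 ^ D * X + 2 ^ D * M j, PP D C, fun j => QQ D C (M j) s j,
    ((2 * (2 ^ D * X) : ℕ) : ℝ), 2 * (2 * (2 ^ D * X))⟩, ?_, fun j => ?_, fun k j hkj => ?_, g2, ?_,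
    n4, g3, fun j hj => ⟨(p1 j hj).1, (p1 j hj).2, ?_⟩, p2, ?_, g4.trans ?_, hZ, ?_⟩
  · have e : ((2 * (2 * (2 ^ D * X)) : ℕ) : ℤ) = 2 * ((2 * (2 ^ D * X) : ℕ) : ℤ) := by
      push_cast
      ring
    show Sup _ 0 ((2 * (2 * (2 ^ D * X)) : ℕ) : ℤ)
    rw [e]
    exact g1
  · have := ends hnZ hiZ hXZ (Int.natCast_nonneg (M j)) (hMZ j)
    exact ⟨this.1, by push_cast; exact this.2⟩
  · exact sep hnZ hWZ (by exact_mod_cast n2 k) (by exact_mod_cast n2 j) hkj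
  · show (2 : ℝ) ^ i ≤ ((2 * (2 ^ D * X) : ℕ) : ℝ)
    exact_mod_cast small hn hX
  · unfold QQ dev
    positivity
  · have hc' : (0 : ℝ) < C.card := by exact_mod_cast hc
    simp only [QQ]
    rw [← Finset.mul_sum]
    refine (mul_le_mul_of_nonneg_left w2 (by positivity)).trans (le_of_eq ?_)
    field_simp
  · have : 2 * (2 * (2 ^ D * X)) + 1 ≤ 2 ^ Z := by omega
    exact_mod_cast this
  · intro η y j0 t a1 a2 a3 a4 a5
    obtain ⟨b1, b2, b3⟩ := win hnZ hiZ hXZ (Int.natCast_nonneg (M j0)) (hMZ j0) a5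
    obtain ⟨N, hN⟩ := Int.eq_ofNat_of_zero_le b1
    have e : (2 : ℤ) ^ D * X + 2 ^ D * M j0 + 2 ^ D * t = N := by
      rw [← hN]
      ring
    rw [hN] at b2 b3
    have key := h5 R D (M j0) j0 N (2 * (2 ^ D * X)) i (2 ^ D * X) C s η y t (by omega) c1 c2 a4 a1
      a2 a3 n3 a5 hN.symm (by exact_mod_cast b2) (by exact_mod_cast b3)
      (four (Nat.two_pow_pos i) hX)
    show _ ≤ gn (2 ^ D * X + 2 ^ D * M j0 + 2 ^ D * t) _ _
    rw [e]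
    exact key

end Vale.Agent.P091Q
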