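import Vale.Agent.P091Q.Stm
import Vale.Agent.P091K.Chi

namespace Vale.Agent.P091Q

open MeasureTheory Real Filter Topology Vale.Agent.P091 Vale.Agent.P091K

namespace Chi2Aux

theorem kp_abs (M k : ℕ) (hM : 1 ≤ M) (hk : k ≤ 2 * M) : |kp M k| ≤ 1 := by
  have hM0 : (0 : ℝ) < M := by exact_mod_cast hM
  have hk' : (k : ℝ) ≤ 2 * M := by exact_mod_cast hk
  have hk0 : (0 : ℝ) ≤ k := Nat.cast_nonneg _
  have h1 : |(k : ℝ) - M| ≤ M := abs_le.2 ⟨by linarith, by linarith⟩
  have h2 : |(k : ℝ) - M| / M ≤ 1 := (div_le_one hM0).2 h1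
  have h3 : 0 ≤ |(k : ℝ) - M| / M := by positivity
  unfold kp
  exact abs_le.2 ⟨by linarith, by linarith⟩

end Chi2Aux

open Vale.Agent.P091K.ChiAux Chi2Aux in
theorem chi2_pf (h1 : FejAStmt) (h2 : FejBStmt) (h3 : FejCStmt) : Chi2Stmt := by
  intro n M hn hM
  obtain ⟨G, hG⟩ : ∃ G : ℕ, G = n * (M + 1) := ⟨_, rfl⟩
  have hMG : M < G := by
    have : 1 * (M + 1) ≤ n * (M + 1) := Nat.mul_le_mul_right _ hn
    omega
  have hG0 : (0 : ℝ) < G := by
    have : 0 < G := by omega
    exact_mod_cast this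
  have hn0 : (0 : ℝ) < n := by exact_mod_cast hn
  have hM0 : (0 : ℝ) < M := by exact_mod_cast hM
  obtain ⟨-, hnn, -, htail⟩ := h2 M hM
  have hsum := (h3 M hM).2 G
  refine ⟨fun j => ∑ g ∈ (Finset.range G).filter (fun g => g / (M + 1) = j),
      ∑ k ∈ Finset.range (2 * M + 1), Finsupp.single ((k : ℤ) - M)
        (((1 / G : ℝ) : ℂ) * (kp M k : ℂ) * E (-((k : ℤ) - M)) (2 * π * g / G)),
    fun j x => 1 / G * ∑ g ∈ (Finset.range G).filter (fun g => g / (M + 1) = j),
      fr M (x - 2 * π * g / G), ?_, ?_, ?_, ?_, ?_, ?_⟩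
  · intro j
    refine sup_sum fun g _ => sup_sum fun k hk => sup_single _ (by omega) ?_
    have := Finset.mem_range.1 hk
    omega
  · intro j x
    beta_reduce
    rw [map_sum, Finset.mul_sum, Complex.ofReal_sum]
    refine Finset.sum_congr rfl fun g _ => ?_
    rw [map_sum, Complex.ofReal_mul, ← h1 M _ hM, Finset.mul_sum]
    refine Finset.sum_congr rfl fun k _ => ?_
    rw [ev_single, E_sub']
    ring
  · intro j x
    exact mul_nonneg (by positivity) (Finset.sum_nonneg fun _ _ => hnn _)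
  · intro x
    beta_reduce
    rw [← Finset.mul_sum, Finset.sum_fiberwise_of_maps_to, hsum x hMG]
    · field_simp
    · intro g hg
      rw [Finset.mem_range] at hg ⊢
      exact (Nat.div_lt_iff_lt_mul (by omega)).2 (hG ▸ hg)
  · have hterm : ∀ g : ℕ, nm (∑ k ∈ Finset.range (2 * M + 1), Finsupp.single ((k : ℤ) - M)
        (((1 / G : ℝ) : ℂ) * (kp M k : ℂ) * E (-((k : ℤ) - M)) (2 * π * g / G))) ≤
        (2 * M + 1) * (1 / G : ℝ) := by
      intro g
      refine (nm_sum_le _ _).trans ?_
      have hb : ∀ k ∈ Finset.range (2 * M + 1), nm (Finsupp.single ((k : ℤ) - M)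
          (((1 / G : ℝ) : ℂ) * (kp M k : ℂ) * E (-((k : ℤ) - M)) (2 * π * g / G))) ≤
          (1 / G : ℝ) := by
        intro k hk
        have hk' := Finset.mem_range.1 hk
        have hp : (0 : ℝ) ≤ 1 / G := by positivity
        rw [nm_single, norm_mul, norm_mul, norm_E, mul_one, Complex.norm_real, Complex.norm_real,
          Real.norm_of_nonneg hp, Real.norm_eq_abs]
        exact mul_le_of_le_one_right hp (kp_abs M k hM (by omega))
      have hc := Finset.sum_le_card_nsmul _ _ _ hb
      rw [nsmul_eq_mul, Finset.card_range] at hc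
      push_cast at hc ⊢
      exact hc
    beta_reduce
    refine (Finset.sum_le_sum fun j _ =>
      (nm_sum_le _ _).trans (Finset.sum_le_sum fun g _ => hterm g)).trans (le_of_eq ?_)
    rw [Finset.sum_fiberwise_of_maps_to (s := Finset.range G) (t := Finset.range n)
      (g := fun g => g / (M + 1)) ?_ (fun _ => ((2 * M + 1) * (1 / G) : ℝ))]
    · rw [Finset.sum_const, Finset.card_range, nsmul_eq_mul]
      field_simp
    · intro g hg
      rw [Finset.mem_range] at hg ⊢
      exact (Nat.div_lt_iff_lt_mul (by omega)).2 (hG ▸ hg)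
  · intro η y j0 hη hy1 hy2 hj
    have hs := hsum (2 * π * (j0 + y) / n) hMG
    rw [← Finset.sum_filter_add_sum_filter_not _ (fun g => g / (M + 1) = j0)] at hs
    have hb : ∀ g ∈ (Finset.range G).filter (fun g => ¬g / (M + 1) = j0),
        fr M (2 * π * (j0 + y) / n - 2 * π * g / G) ≤ (n : ℝ) ^ 2 / (4 * M * η ^ 2) := by
      intro g hg
      obtain ⟨hg1, hg2⟩ := Finset.mem_filter.1 hg
      obtain ⟨a1, a2⟩ := gap n M g j0 η y hy1 hy2 hj (hG ▸ Finset.mem_range.1 hg1) hg2
      have hc : 0 < 2 * π / n := by positivity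
      have e : |2 * π * (j0 + y) / n - 2 * π * g / G| =
          2 * π / n * |(j0 : ℝ) + y - g / (M + 1)| := by
        rw [← abs_of_pos hc, ← abs_mul, hG]
        congr 1
        push_cast
        field_simp
      refine (htail _ (2 * π / n * η) (by positivity) ?_ ?_).trans (le_of_eq ?_)
      · rw [e]
        exact mul_le_mul_of_nonneg_left a1 hc.le
      · rw [e]
        refine (mul_le_mul_of_nonneg_left a2 hc.le).trans (le_of_eq ?_)
        field_simp
      · field_simp
        ring
    have hc := Finset.sum_le_card_nsmul _ _ _ hb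
    rw [nsmul_eq_mul] at hc
    have hcard : (((Finset.range G).filter (fun g => ¬g / (M + 1) = j0)).card : ℝ) ≤ G := by
      have := Finset.card_filter_le (Finset.range G) (fun g => ¬g / (M + 1) = j0)
      rw [Finset.card_range] at this
      exact_mod_cast this
    have hB : (0 : ℝ) ≤ (n : ℝ) ^ 2 / (4 * M * η ^ 2) := by positivity
    have hd := hc.trans (mul_le_mul_of_nonneg_right hcard hB)
    refine le_of_mul_le_mul_left ?_ hG0
    beta_reduce
    rw [mul_sub, ← mul_assoc, mul_one_div_cancel hG0.ne', one_mul, mul_one]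
    linarith

end Vale.Agent.P091Q
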