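import Vale.Agent.P091Q.Stm
import Vale.Agent.P091K.Emb

/-! Embedding a polynomial at the next level, with explicit sizes. -/

namespace Vale.Agent.P091Q

open MeasureTheory Real Filter Topology Vale.Agent.P091 Vale.Agent.P091K

namespace Emb2Aux

theorem nums {X Dg n : ℕ} (hX : 16 ≤ X) (hD : Dg + 2 ≤ X) (hn : 1 ≤ n) :
    (7 * X ^ 2 + 1) * (n * X ^ 4 + 1) * (Dg + 2) ≤ n ^ 2 * X ^ 8 := by
  have h0 : 1 ≤ X := by omega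
  have h1 : 1 ≤ X ^ 2 := Nat.one_le_pow _ _ h0
  have h2 : 1 ≤ n * X ^ 4 := Nat.mul_pos hn (Nat.one_le_pow _ _ h0)
  have h3 : n ≤ n ^ 2 := by nlinarith
  calc (7 * X ^ 2 + 1) * (n * X ^ 4 + 1) * (Dg + 2)
      ≤ (7 * X ^ 2 + X ^ 2) * (n * X ^ 4 + n * X ^ 4) * X := by gcongr
    _ = n * (16 * X ^ 7) := by ring
    _ ≤ n ^ 2 * (X * X ^ 7) := by gcongr
    _ = n ^ 2 * X ^ 8 := by ring

theorem num1 {X m δ : ℝ} (hX : 1 ≤ X) (hm : m ≤ X) (hδ : 1 ≤ δ * X) :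
    7 / (7 * X ^ 2) * m ≤ δ := by
  have h0 : 0 < X := by linarith
  rw [div_mul_eq_mul_div, div_le_iff₀ (by positivity)]
  nlinarith [mul_le_mul_of_nonneg_right hδ h0.le]

theorem num2 {X m δ η : ℝ} (hX : 1 ≤ X) (hm : m ≤ X) (hδ : 1 ≤ δ * X) (hη : 1 ≤ η * X)
    (hη0 : 0 < η) : m / (2 * X ^ 4 * η ^ 2) ≤ δ := by
  have h0 : 0 < X := by linarith
  have h1 : 1 ≤ (η * X) ^ 2 := one_le_pow₀ hη
  have h2 : 1 ≤ δ * X * (η * X) ^ 2 := one_le_mul_of_one_le_of_one_le hδ h1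
  have h3 := mul_le_mul_of_nonneg_left h2 h0.le
  rw [div_le_iff₀ (by positivity)]
  have h4 : δ * (2 * X ^ 4 * η ^ 2) = 2 * (X * (δ * X * (η * X) ^ 2)) := by ring
  rw [h4]
  linarith

theorem num3 {X m n s : ℝ} (hX : 1 ≤ X) (hm : m ≤ X) (hn : 1 ≤ n) (hs0 : 0 ≤ s)
    (hs : s ≤ 2 * (n ^ 2 * X ^ 4) + 1) : m * s ≤ 4 * X ^ 5 * n ^ 2 := by
  have h0 : 0 ≤ X := by linarith
  have h1 : 1 ≤ n ^ 2 * X ^ 4 := one_le_mul_of_one_le_of_one_le (one_le_pow₀ hn) (one_le_pow₀ hX)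
  calc m * s ≤ X * s := mul_le_mul_of_nonneg_right hm hs0
    _ ≤ X * (4 * (n ^ 2 * X ^ 4)) := mul_le_mul_of_nonneg_left (by linarith) h0
    _ = 4 * X ^ 5 * n ^ 2 := by ring

theorem core (h1 : Chi2Stmt) (h2 : Nest1Stmt) (h3 : Nest2Stmt) (h4 : AlignStmt) (h5 : NestNStmt)
    (c : TP) (Dg X n : ℕ) (δ η : ℝ) (L : ℕ → ℤ) (B Y : ℤ) (hY : Y = (X : ℤ) ^ 8)
    (hc : Sup c 0 Dg) (hX : 16 ≤ X)
    (hnm : nm c ≤ X) (hD : Dg + 2 ≤ X) (hδ : 1 ≤ δ * X) (hη : 1 ≤ η * X) (n1 : 1 ≤ n)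
    (hL : ∀ j, (n : ℤ) ^ 3 * Y ≤ L j ∧ L j + (n : ℤ) ^ 3 * Y ≤ B)
    (hsep : ∀ i j, L i ≠ L j → 2 * ((n : ℤ) ^ 3 * Y) ≤ |L i - L j|) :
    ∃ (F : TP) (p : ℕ), 1 ≤ p ∧ Sup F 0 B ∧ (∀ x : ℝ, ‖ev x F‖ ≤ ‖ev ((n : ℝ) * p * x) c‖) ∧
      nm F ≤ 4 * (X : ℝ) ^ 5 * (n : ℝ) ^ 2 ∧
      ∀ (y : ℝ) (j0 : ℕ) (N : ℤ), η ≤ y → y ≤ 1 - η → j0 < n → 0 ≤ N → N ≤ Dg + 1 →
        ∃ t : ℤ, |t| ≤ (n : ℤ) ^ 2 * Y ∧
          gn N ((n : ℝ) * p * (2 * π * (j0 + y) / n)) c - 2 * δ ≤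
            gn (L j0 + n * t) (2 * π * (j0 + y) / n) F := by
  have hm := nm_nonneg c
  have hX0 : 1 ≤ X := by omega
  have hXr : (1 : ℝ) ≤ X := by exact_mod_cast hX0
  have hη0 : 0 < η := by
    by_contra hneg
    have := mul_nonpos_of_nonpos_of_nonneg (not_lt.1 hneg) (zero_le_one.trans hXr)
    linarith
  have n3 := nums hX hD n1
  obtain ⟨Q, hQ⟩ : ∃ Q : ℕ, Q = 7 * X ^ 2 := ⟨_, rfl⟩
  obtain ⟨C0, hC⟩ : ∃ C0 : ℕ, C0 = X ^ 4 := ⟨_, rfl⟩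
  obtain ⟨Z, hZ⟩ : ∃ Z : ℕ, Z = X ^ 8 := ⟨_, rfl⟩
  have hYZ : Y = (Z : ℤ) := by rw [hY, hZ]; push_cast; rfl
  have hQ1 : 1 ≤ Q := by rw [hQ]; exact Nat.mul_pos (by omega) (Nat.one_le_pow _ _ hX0)
  have hC1 : 1 ≤ C0 := by rw [hC]; exact Nat.one_le_pow _ _ hX0
  have hQr : (Q : ℝ) = 7 * (X : ℝ) ^ 2 := by rw [hQ]; push_cast; rfl
  have hCr : (C0 : ℝ) = (X : ℝ) ^ 4 := by rw [hC]; push_cast; rfl
  rw [← hQ, ← hC, ← hZ] at n3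
  clear hQ hC hZ hY
  subst hYZ
  obtain ⟨χ, r, c1, c2, c3, c4, c6, c5⟩ :=
    h1 n (n ^ 2 * C0) n1 (Nat.mul_pos (by positivity) hC1)
  obtain ⟨p', hp'⟩ : ∃ p' : ℕ, p' = n * C0 + 1 := ⟨_, rfl⟩
  obtain ⟨p, hp⟩ : ∃ p : ℕ, p = (Q + 1) * p' := ⟨_, rfl⟩
  obtain ⟨M, hM⟩ : ∃ M : ℕ, M = n ^ 2 * C0 := ⟨_, rfl⟩
  rw [← hp', ← hp] at n3
  rw [← hM] at c1 c5 c6
  have hMr : (M : ℝ) = (n : ℝ) ^ 2 * (X : ℝ) ^ 4 := by rw [hM, ← hCr]; push_cast; rfl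
  have a1 : M < n * p' := by
    rw [hM, hp']
    nlinarith
  have a2 : n * p * (Dg + 2) ≤ n ^ 3 * Z := by
    calc n * p * (Dg + 2) = n * (p * (Dg + 2)) := by ring
      _ ≤ n * (n ^ 2 * Z) := by gcongr
      _ = n ^ 3 * Z := by ring
  have a3 : n * p = Q * (n * p') + n * p' := by
    rw [hp]
    ring
  have z1 : (M : ℤ) < n * p' := by exact_mod_cast a1
  have z2 : (n : ℤ) * p * (Dg + 2) ≤ n ^ 3 * Z := by exact_mod_cast a2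
  have z3 : (n : ℤ) * p = Q * (n * p') + n * p' := by exact_mod_cast a3
  have z4 : (p : ℤ) * (Dg + 2) ≤ n ^ 2 * Z := by exact_mod_cast n3
  have z5 : (p : ℤ) = Q * p' + p' := by
    rw [hp]
    push_cast
    ring
  have y1 : (0 : ℤ) ≤ Q * (n * p') := by positivity
  have y2 : (0 : ℤ) ≤ n * p * Dg := by positivity
  have y3 : (0 : ℤ) ≤ M := by positivity
  have y4 : (0 : ℤ) ≤ n * p := by positivity
  have ew : ∀ x : ℝ, (((n : ℤ) * (p : ℤ) : ℤ) : ℝ) * x = (n : ℝ) * p * x := fun x => by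
    push_cast
    ring
  obtain ⟨s1, s2⟩ := h2 c χ r L n (n * p) Dg M B hc c1 c2 c3 c4 y4 fun j =>
    ⟨by linarith [(hL j).1], by linarith [(hL j).2]⟩
  have hnr : (1 : ℝ) ≤ n := by exact_mod_cast n1
  have s3 : nm (nest c χ L n (n * p)) ≤ 4 * (X : ℝ) ^ 5 * (n : ℝ) ^ 2 :=
    (h5 c χ L n (n * p)).trans (num3 hXr hnm hnr
      (Finset.sum_nonneg fun j _ => nm_nonneg _) (by rw [← hMr]; exact c6))
  refine ⟨nest c χ L n (n * p), p, by rw [hp, hp']; exact Nat.mul_pos (by omega) (by omega), s1,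
    fun x => by rw [← ew]; exact s2 x, s3, fun y j0 N hy1 hy2 hj hN0 hN1 => ?_⟩
  obtain ⟨q, q1, q2, q3⟩ := h4 (2 * π * (j0 + y) / n) (n * p') Q hQ1
  have q4 : (1 : ℤ) ≤ q := by exact_mod_cast q1
  have q5 : (q : ℤ) ≤ Q := by exact_mod_cast q2
  have y5 : (0 : ℤ) ≤ n * p' := by positivity
  have y6 : (0 : ℤ) ≤ p' := by positivity
  have y7 : (0 : ℤ) ≤ p := by positivity
  have y8 : (0 : ℤ) ≤ p * Dg := by positivity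
  have g1 := mul_le_mul_of_nonneg_right q4 y5
  have g2 := mul_le_mul_of_nonneg_right q5 y5
  have g3 := mul_le_mul_of_nonneg_right q5 y6
  have g4 := mul_le_mul_of_nonneg_left hN1 y7
  have g5 := mul_nonneg y7 hN0
  have g6 := mul_nonneg (zero_le_one.trans q4) y6
  have e := h3 c χ r L n j0 (n * p) Dg M (q * (n * p')) N (2 * π * (j0 + y) / n) hc c1 c2 c3 c4 y3
    (by linarith) (by linarith) hN0 hN1 hj fun j hj => by linarith [hsep j j0 hj]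
  have k := EmbAux.gn_cmp rfl e q3
  refine ⟨p * N - q * p', abs_le.2 ⟨by linarith, by linarith⟩, ?_⟩
  rw [show L j0 + n * (p * N - q * p') = L j0 + n * p * N - q * (n * p') by ring, ← ew]
  refine le_trans ?_ k
  have b1 : 7 / (Q : ℝ) * nm c ≤ δ := by
    rw [hQr]
    exact num1 hXr hnm hδ
  have b2 : 2 * (1 - r j0 (2 * π * (j0 + y) / n)) * nm c ≤ δ := by
    have b3 := c5 η y j0 hη0 hy1 hy2 hj
    have hn0 : (0 : ℝ) < n := Nat.cast_pos.2 n1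
    have hX1 : (0 : ℝ) < X := by linarith
    have b4 : (n : ℝ) ^ 2 / (4 * M * η ^ 2) = 1 / (4 * (X : ℝ) ^ 4 * η ^ 2) := by
      rw [hMr]
      field_simp
    rw [b4] at b3
    calc 2 * (1 - r j0 (2 * π * (j0 + y) / n)) * nm c
        ≤ 2 * (1 / (4 * (X : ℝ) ^ 4 * η ^ 2)) * nm c := by gcongr
      _ = nm c / (2 * (X : ℝ) ^ 4 * η ^ 2) := by
          field_simp
          ring
      _ ≤ δ := num2 hXr hnm hδ hη hη0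
  linarith

end Emb2Aux

theorem emb2_pf (h1 : Chi2Stmt) (h2 : Nest1Stmt) (h3 : Nest2Stmt) (h4 : AlignStmt)
    (h5 : NestNStmt) : Emb2Stmt := by
  intro c Dg S n δ η L B hc hS hnm hD hδ hη hn hL hsep
  have hX : 16 ≤ 2 ^ S := le_trans (by norm_num) (Nat.pow_le_pow_right (by norm_num : 0 < 2) hS)
  have hr : ((2 ^ S : ℕ) : ℝ) = 2 ^ S := by push_cast; rfl
  have hY : (2 : ℤ) ^ (8 * S) = ((2 ^ S : ℕ) : ℤ) ^ 8 := by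
    rw [Nat.cast_pow, Nat.cast_ofNat, ← pow_mul, mul_comm]
  have h7 : (2 : ℝ) ^ (5 * S + 2) = 4 * ((2 ^ S : ℕ) : ℝ) ^ 5 := by
    rw [hr, ← pow_mul, pow_add, mul_comm S 5, mul_comm]
    norm_num
  rw [h7]
  exact Emb2Aux.core h1 h2 h3 h4 h5 c Dg (2 ^ S) n δ η L B _ hY hc hX (by rw [hr]; exact hnm) hD
    (by rw [hr]; exact hδ) (by rw [hr]; exact hη) hn hL hsep

end Vale.Agent.P091Q
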