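import Vale.Agent.P091Q.Stm

namespace Vale.Agent.P091Q

open MeasureTheory Real Filter Topology Vale.Agent.P091 Vale.Agent.P091K

theorem nestN_pf : NestNStmt := by
  intro c χ L n w
  rw [Finset.mul_sum]
  refine (nm_sum_le _ _).trans (Finset.sum_le_sum fun j _ => ?_)
  rw [nm_eq (c := c) subset_rfl, Finset.sum_mul]
  refine (nm_sum_le _ _).trans (Finset.sum_le_sum fun k _ => ?_)
  rw [nm_eq (c := χ j) subset_rfl, Finset.mul_sum]
  refine (nm_sum_le _ _).trans (Finset.sum_le_sum fun m _ => ?_)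
  rw [nm_single, norm_mul]

theorem gkM_pf : GkMStmt := by
  intro M L0 C p hM hC
  have M0 : (0 : ℝ) < M := by exact_mod_cast hM
  have C0 : (0 : ℝ) < C.card := by exact_mod_cast hC.card_pos
  have k : ∀ j ∈ C, nm (∑ k ∈ Finset.range (2 * M + 1), Finsupp.single (k : ℤ)
      (((1 / C.card : ℝ) : ℂ) * E L0 (p j) * (kp M k : ℂ) * E (-(k : ℤ)) (p j))) ≤
      (2 * M + 1) * (1 / C.card) := fun j _ => by
    refine (nm_sum_le _ _).trans ((Finset.sum_le_card_nsmul (Finset.range (2 * M + 1)) _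
      (1 / C.card : ℝ) fun k hk => ?_).trans (le_of_eq (by simp)))
    have k1 : (k : ℝ) ≤ 2 * M := by exact_mod_cast Nat.lt_succ_iff.1 (Finset.mem_range.1 hk)
    have k0 : (0 : ℝ) ≤ k := k.cast_nonneg
    have a1 : |(k : ℝ) - M| / M ≤ 1 := (div_le_one M0).2 (abs_le.2 ⟨by linarith, by linarith⟩)
    have a0 : 0 ≤ |(k : ℝ) - M| / M := by positivity
    rw [nm_single, norm_mul, norm_mul, norm_mul, norm_E, norm_E, mul_one, mul_one,
      Complex.norm_real, Complex.norm_real, Real.norm_of_nonneg (by positivity)]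
    exact mul_le_of_le_one_right (by positivity) (abs_le.2 ⟨by unfold kp; linarith,
      by unfold kp; linarith⟩)
  refine (nm_sum_le _ _).trans ((Finset.sum_le_card_nsmul _ _ _ k).trans (le_of_eq ?_))
  rw [nsmul_eq_mul]
  field_simp

theorem h5_pf (h : H5aStmt) : H5Stmt := by
  intro ψ b W β κ τ hψ hc
  have me : ∀ s, Measurable fun x => ENNReal.ofReal ((b s).h (x - τ s)) := fun s =>
    ((hc.1 s).2.1.1.comp (measurable_sub_const _)).ennreal_ofReal
  refine (lintegral_mono (h ψ b W β κ τ hψ hc)).trans_lt ?_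
  rw [lintegral_add_left measurable_const, lintegral_tsum fun s =>
    ((me s).const_mul _).aemeasurable]
  refine ENNReal.add_lt_top.2 ⟨?_, ?_⟩
  · rw [setLIntegral_const]
    exact ENNReal.mul_lt_top ENNReal.ofReal_lt_top measure_Ioc_lt_top
  have su : Summable fun s : ℕ => 3 * (1 / 2 : ℝ) ^ s := summable_geometric_two.mul_left 3
  refine (ENNReal.tsum_le_tsum (g := fun s : ℕ => ENNReal.ofReal (3 * (1 / 2 : ℝ) ^ s))
    fun s => ?_).trans_lt ?_
  · have b0 : 0 ≤ 3 * ∑ r ∈ Finset.range (s + 1), β r :=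
      mul_nonneg zero_le_three (Finset.sum_nonneg fun r _ => (hc.2.2 r).1)
    rw [lintegral_const_mul _ (me s), lint_shift (h := fun x => ENNReal.ofReal ((b s).h x))
      (fun x => congrArg ENNReal.ofReal ((hc.1 s).2.1.2.1 x))]
    refine (mul_le_mul_right (hc.2.2 s).2.2.2.2.1 _).trans ?_
    rw [← ENNReal.ofReal_mul b0, mul_assoc]
    exact ENNReal.ofReal_le_ofReal (mul_le_mul_of_nonneg_left (hc.2.2 s).2.2.2.2.2.1 zero_le_three)
  · rw [← ENNReal.ofReal_tsum_of_nonneg (fun s => by positivity) su]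
    exact ENNReal.ofReal_lt_top

end Vale.Agent.P091Q
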