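import Vale.Agent.P091Q.Stm

namespace Vale.Agent.P091Q

open MeasureTheory Real Filter Topology Vale.Agent.P091 Vale.Agent.P091K

namespace H5aAux

theorem find {W : ℕ → ℝ} {A : ℝ} (hW : ∀ r, W r + 1 ≤ W (r + 1)) (h0 : 2 * W 0 ≤ A) :
    ∃ r, 2 * W r ≤ A ∧ A ≤ 2 * W (r + 1) := by
  by_contra hc
  have h1 : ∀ r : ℕ, 2 * W r ≤ A := fun r => by
    induction r with
    | zero => exact h0
    | succ r ih => exact le_of_not_ge fun h => hc ⟨r, ih, h⟩
  have h2 : ∀ r : ℕ, W 0 + r ≤ W r := fun r => by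
    induction r with
    | zero => simp
    | succ r ih =>
      have := hW r
      push_cast
      linarith
  obtain ⟨r, hr⟩ := exists_nat_gt (A / 2 - W 0)
  have := h1 r
  have := h2 r
  linarith

theorem norm_fz (b : ℕ → Blk) (τ : ℕ → ℝ) (s : ℕ) (x : ℝ) : ‖fz b τ s x‖ ≤ nm (b s).c := by
  rw [fz, norm_mul, norm_E, one_mul]
  exact norm_ev_le _ _

theorem tail {β : ℕ → ℝ} (hβ : ∀ r, 0 ≤ β r) (g : ℕ → ENNReal) (r : ℕ) :
    ENNReal.ofReal (3 * β r) * ∑' s, g (s + r) ≤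
      ∑' s, ENNReal.ofReal (3 * ∑ k ∈ Finset.range (s + 1), β k) * g s := by
  rw [← ENNReal.tsum_mul_left]
  refine le_trans (ENNReal.tsum_le_tsum fun s => ?_)
    (ENNReal.tsum_comp_le_tsum_of_injective (add_left_injective r) _)
  refine mul_le_mul_left (ENNReal.ofReal_le_ofReal ?_) _
  exact mul_le_mul_of_nonneg_left
    (Finset.single_le_sum (fun k _ => hβ k) (Finset.mem_range.mpr (by omega))) (by norm_num)

end H5aAux

open H5aAux

theorem h5a_pf (h1 : PhiLStmt) (h2 : TailStmt) : H5aStmt := by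
  intro ψ b W β κ τ hψ hc x
  obtain ⟨c1, c2, c3⟩ := hc
  by_cases h0 : ‖FF b τ x‖ ≤ 2 * W 0
  · exact le_trans (ENNReal.ofReal_le_ofReal
      (hψ.1 (norm_nonneg _) (show (0 : ℝ) ≤ 2 * W 0 by positivity) h0)) le_self_add
  have hs : Summable fun s => ‖fz b τ s x‖ := by
    by_contra hn
    rw [summable_norm_iff] at hn
    apply h0
    rw [FF, tsum_eq_zero_of_not_summable hn, norm_zero]
    positivity
  obtain ⟨r, r1, r2⟩ := find (fun r => (c3 r).2.2.2.1) (le_of_not_ge h0)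
  have t0 : 0 ≤ ∑' s, ‖fz b τ (s + r) x‖ := tsum_nonneg fun _ => norm_nonneg _
  have t1 : ‖FF b τ x‖ ≤ 2 * ∑' s, ‖fz b τ (s + r) x‖ := by
    have a1 : ‖FF b τ x‖ ≤ ∑' s, ‖fz b τ s x‖ := norm_tsum_le_tsum_norm hs
    have a2 := hs.sum_add_tsum_nat_add r
    have a3 : ∑ s ∈ Finset.range r, ‖fz b τ s x‖ ≤ W r :=
      (Finset.sum_le_sum fun s _ => norm_fz b τ s x).trans (c3 r).2.2.1
    linarith
  have t2 : ψ ‖FF b τ x‖ ≤ 3 * β r * Ph (∑' s, ‖fz b τ (s + r) x‖) := by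
    have a1 := (c3 r).2.2.2.2.2.2 _ r1 r2
    have a2 := (h1.1 _ _ (norm_nonneg _) t1).trans (h1.2.2.2.2.2 _ t0)
    have a3 := mul_le_mul_of_nonneg_left a2 (c3 r).1
    linarith
  refine le_trans ?_ le_add_self
  refine (ENNReal.ofReal_le_ofReal t2).trans ?_
  rw [ENNReal.ofReal_mul (mul_nonneg (by norm_num) (c3 r).1)]
  exact (mul_le_mul_right (h2 b τ c1 x r hs) _).trans
    (tail (fun k => (c3 k).1) (fun s => ENNReal.ofReal ((b s).h (x - τ s))) r)

end Vale.Agent.P091Q
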