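import Vale.Agent.P091Q.Stm

namespace Vale.Agent.P091Q

open MeasureTheory Real Filter Topology Vale.Agent.P091 Vale.Agent.P091K

namespace LevG2Aux

theorem rng {n t L B u : ℤ} (hn : 0 ≤ n) (ht : |t| ≤ n ^ 2 * u) (h1 : n ^ 3 * u ≤ L)
    (h2 : L + n ^ 3 * u ≤ B) : 0 ≤ L + n * t ∧ L + n * t ≤ B + 1 := by
  obtain ⟨a, b⟩ := abs_le.1 ht
  have c := mul_le_mul_of_nonneg_left a hn
  have d := mul_le_mul_of_nonneg_left b hn
  constructor <;> nlinarith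

end LevG2Aux

theorem levG2_pf (h : CellStmt) : LevG2Stmt := by
  intro d a F h' R D i Z p l al δ η hG hY hE hA hF hal hδ hη hδ' hP hemb x
  obtain ⟨a1, a2, -, -, -, -, -, a8, -, -, -, -, a11⟩ := hA
  obtain ⟨-, -, c3, c4, -, -⟩ := h (2 ^ D) Nat.one_le_two_pow
  have hj := c3 x
  by_cases hx : x ∈ Ins (2 ^ D) η
  · obtain ⟨m, hm⟩ := c4 x
    obtain ⟨y1, y2⟩ := hx
    have hx' : x ∉ (Ins (2 ^ D) η)ᶜ := fun hc => hc ⟨y1, y2⟩
    generalize Int.fract (x * ((2 ^ D : ℕ) : ℝ) / (2 * π)) = y at hm y1 y2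
    obtain ⟨N, n1, n2, n3⟩ := hG (((2 ^ D : ℕ) : ℝ) * p * x)
    obtain ⟨t, t1, t2⟩ := hemb y _ N y1 y2 hj n1 n2
    have t1' : |t| ≤ ((2 : ℤ) ^ D) ^ 2 * 2 ^ i := by exact_mod_cast t1
    have g1 := mul_le_mul_of_nonneg_left (a11 η y _ t hη y1 y2 hj t1') hal
    obtain ⟨r1, r2⟩ := LevG2Aux.rng (by positivity) t1' (a2 (cl (2 ^ D) x)).1 (a2 (cl (2 ^ D) x)).2
    refine ⟨a.L (cl (2 ^ D) x) + 2 ^ D * t, r1, r2, ?_⟩
    simp only [Set.indicator_of_notMem hx', mul_zero, add_zero]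
    generalize cl (2 ^ D) x = j at hm t2 g1 ⊢
    have e1 : gn N (((2 ^ D : ℕ) : ℝ) * p * x) d.c =
        gn N (((2 ^ D : ℕ) : ℝ) * p * (2 * π * (j + y) / (2 ^ D : ℕ))) d.c := by
      rw [← gn_per N d.c (((2 ^ D : ℕ) : ℝ) * p * (2 * π * (j + y) / (2 ^ D : ℕ)))
        ((2 ^ D : ℕ) * p * m)]
      congr 1
      conv_lhs => rw [hm]
      push_cast
      ring
    have e2 : gn (a.L j + 2 ^ D * t) x (F + (al : ℂ) • a.g) =
        gn (a.L j + 2 ^ D * t) (2 * π * (j + y) / (2 ^ D : ℕ)) (F + (al : ℂ) • a.g) := by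
      conv_lhs => rw [hm]
      exact gn_per _ _ _ _
    rw [e2, gn_add_smul]
    rw [e1] at n3
    push_cast at t2 n3 ⊢
    have e3 : al * (a.P j / 51 - a.Q j / 3 - 40 * 2 ^ R / η) =
        al * a.P j / 51 - al * a.Q j / 3 - al * (40 * 2 ^ R / η) := by ring
    linarith
  · refine ⟨0, le_rfl, by positivity, ?_⟩
    have hx' : x ∈ (Ins (2 ^ D) η)ᶜ := hx
    have z : gn 0 x (F + (al : ℂ) • a.g) = 0 := by
      unfold gn
      rw [ps_low (sup_add hF (sup_smul _ a1)) le_rfl, mul_zero, Complex.zero_re]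
    simp only [Set.indicator_of_mem hx', Pi.one_apply, mul_one, z]
    have q := mul_nonneg hal (a8 _ hj).2.2
    linarith [hY (((2 ^ D : ℕ) : ℝ) * p * x), hE (((2 ^ D : ℕ) : ℝ) * p * x), hP _ hj]

end Vale.Agent.P091Q
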