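import Vale.Agent.P091Q.Stm

namespace Vale.Agent.P091Q

open Vale.Agent.P091 Vale.Agent.P091K

namespace LevNumAux

theorem exK (R S : ℕ) (hR : 1 ≤ R) (h3 : R ^ 3 ≤ S) :
    ∃ K : ℕ, 2 ≤ K ∧ R ≤ K ∧ 8 * S < R * K ^ 2 ∧ R * K ^ 2 ≤ 32 * S := by
  have hRS : R ≤ S := (Nat.le_self_pow (by norm_num) R).trans h3
  have hq : 1 ≤ 8 * S / R := (Nat.le_div_iff_mul_le hR).2 (by omega)
  have h1 := Nat.lt_succ_sqrt' (8 * S / R)
  have h2 := Nat.sqrt_le' (8 * S / R)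
  have h4 : 1 ≤ Nat.sqrt (8 * S / R) := Nat.le_sqrt'.2 (by simpa using hq)
  have h5 := Nat.div_add_mod (8 * S) R
  have h6 := Nat.mod_lt (8 * S) hR
  generalize Nat.sqrt (8 * S / R) = k at h1 h2 h4
  generalize 8 * S % R = m at h5 h6
  generalize 8 * S / R = q at h1 h2 h5 hq
  rw [Nat.succ_eq_add_one] at h1
  have h7 : 8 * S < R * (k + 1) ^ 2 := by
    have := Nat.mul_le_mul_left R (Nat.succ_le_of_lt h1)
    rw [Nat.succ_eq_add_one, mul_add, mul_one] at this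
    omega
  refine ⟨k + 1, by omega, ?_, h7, ?_⟩
  · by_contra hc
    have hc' : k + 1 ≤ R := by omega
    have := Nat.mul_le_mul_left R (Nat.pow_le_pow_left hc' 2)
    have e : R * R ^ 2 = R ^ 3 := by ring
    omega
  · have a1 : (k + 1) ^ 2 ≤ 4 * k ^ 2 := by nlinarith
    have a2 := Nat.mul_le_mul_left R (a1.trans (Nat.mul_le_mul_left 4 h2))
    have e : R * (4 * q) = 4 * (R * q) := by ring
    omega

theorem pw (R l S : ℕ) (h : 2 ^ (4 * R + 80) * 4 ^ l ≤ S) :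
    R ^ 3 ≤ S ∧ (40 * 2 ^ (2 * R + 31) * (l + 1)) ^ 2 ≤ S ∧
      R + 16 + l ≤ 40 * 2 ^ (2 * R + 31) * (l + 1) := by
  have e1 : 2 ^ (4 * R + 80) * 4 ^ l = 2 ^ 80 * ((2 ^ R) ^ 2 * 2 ^ l) ^ 2 := by
    have e0 : 4 ^ l = (2 ^ l) ^ 2 := by
      rw [← pow_mul, mul_comm, pow_mul]
      rfl
    rw [e0]
    ring
  have e2 : 2 ^ (2 * R + 31) = 2 ^ 31 * (2 ^ R) ^ 2 := by ring
  have hY : R < 2 ^ R := Nat.lt_two_pow_self
  have hZ : l < 2 ^ l := Nat.lt_two_pow_self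
  rw [e1] at h
  rw [e2]
  generalize 2 ^ R = Y at h hY
  generalize 2 ^ l = Z at h hZ
  have hY1 : 1 ≤ Y := by omega
  have hZ1 : 1 ≤ Z := by omega
  have b1 : Y ^ 2 * (l + 1) ≤ Y ^ 2 * Z := Nat.mul_le_mul_left _ hZ
  have b2 := Nat.pow_le_pow_left b1 2
  have b3 : Y ≤ Y ^ 2 := Nat.le_self_pow (by norm_num) Y
  refine ⟨?_, ?_, ?_⟩
  · have c1 : R ^ 3 ≤ Y ^ 3 := Nat.pow_le_pow_left hY.le 3
    have c2 : Y ^ 3 ≤ Y ^ 4 := Nat.pow_le_pow_right hY1 (by norm_num)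
    have c3 : Y ^ 2 ≤ Y ^ 2 * Z := Nat.le_mul_of_pos_right _ hZ1
    have c4 := Nat.pow_le_pow_left c3 2
    have c5 : (Y ^ 2) ^ 2 = Y ^ 4 := by ring
    omega
  · have c1 : (40 * (2 ^ 31 * Y ^ 2) * (l + 1)) ^ 2 =
        (40 * 2 ^ 31) ^ 2 * (Y ^ 2 * (l + 1)) ^ 2 := by ring
    rw [c1]
    exact (Nat.mul_le_mul (by norm_num) b2).trans h
  · have c1 : 40 * (2 ^ 31 * Y ^ 2) * (l + 1) = 40 * 2 ^ 31 * (Y ^ 2 * l + Y ^ 2) := by ring
    have c2 : l ≤ Y ^ 2 * l := Nat.le_mul_of_pos_left _ (by omega)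
    rw [c1]
    omega

end LevNumAux

theorem levNum_pf : LevNumStmt := by
  intro R l S hR h
  obtain ⟨p1, p2, p3⟩ := LevNumAux.pw R l S h
  obtain ⟨K, k2, k1, k3, k4⟩ := LevNumAux.exK R S hR p1
  clear h
  generalize 40 * 2 ^ (2 * R + 31) * (l + 1) = X at p2 p3
  have d1 : R * K ≤ DD R K := by
    unfold DD
    rw [mul_add]
    omega
  have d2 : DD R K + 1 ≤ 3 * (R * K) := by
    have := Nat.mul_le_mul_left R k2
    unfold DD
    rw [mul_add]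
    omega
  have d3 : 8 * S * R ≤ DD R K ^ 2 :=
    calc 8 * S * R ≤ R * K ^ 2 * R := Nat.mul_le_mul_right R k3.le
      _ = (R * K) ^ 2 := by ring
      _ ≤ DD R K ^ 2 := Nat.pow_le_pow_left d1 2
  have d4 : R * K ≤ R * K ^ 2 := Nat.mul_le_mul_left R (Nat.le_self_pow (by norm_num) K)
  have d5 : (K + 1) * (DD R K + 1) ≤ 6 * (R * K ^ 2) :=
    calc (K + 1) * (DD R K + 1) ≤ (2 * K) * (3 * (R * K)) := Nat.mul_le_mul (by omega) d2
      _ = 6 * (R * K ^ 2) := by ring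
  have d6 : X ≤ DD R K := by
    have a1 : 8 * S ≤ 8 * S * R := Nat.le_mul_of_pos_right _ hR
    exact (Nat.pow_le_pow_iff_left (n := 2) (by norm_num)).1 (by omega)
  have d7 : X ≤ X ^ 2 := Nat.le_self_pow (by norm_num) X
  refine ⟨K, k1, d3, ?_, by omega, d6, by omega, by omega⟩
  unfold Ex
  rw [mul_assoc 8000000]
  omega

end Vale.Agent.P091Q
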