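import Vale.Agent.P091Q.Stm
import Vale.Agent.P091K.Level

namespace Vale.Agent.P091Q

open MeasureTheory Real Filter Topology Vale.Agent.P091 Vale.Agent.P091K

namespace Level2Aux

theorem num_k {κ ϑ al D s Lg : ℝ} (ϑ0 : 0 < ϑ) (al0 : 0 < al) (hal : al * D = ϑ) (sR : 0 < s)
    (sR1 : s ≤ D) (hLg : Lg = 5000 * D / s) :
    κ + al * (Lg + 1) * (2 * π) ≤ κ + 32000 * ϑ / s := by
  have e0 : 1 ≤ D / s := (one_le_div sR).2 sR1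
  have e1 : Lg + 1 ≤ 5001 * (D / s) := by
    rw [hLg, mul_div_assoc]; linarith
  have e2 : al * (5001 * (D / s)) = 5001 * (ϑ / s) := by rw [← hal]; ring
  have e3 := mul_le_mul_of_nonneg_left e1 al0.le
  rw [e2] at e3
  have e4 : 0 ≤ ϑ / s := by positivity
  have e5 := mul_le_mul_of_nonneg_right e3 (by positivity : 0 ≤ 2 * π)
  rw [mul_div_assoc]
  nlinarith [mul_le_mul_of_nonneg_right Real.pi_lt_d2.le e4]

theorem num_l {H D R Lg : ℝ} (H0 : 0 < 2 * H) (D0 : 0 < D) (R1 : 1 ≤ R)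
    (hLg : Lg = 5000 * D / √R) (b6 : 2 * H ≤ Real.exp (25000000 * D ^ 2 / R)) :
    √(Real.log (2 * H)) ≤ Lg := by
  have Lg0 : 0 ≤ Lg := by rw [hLg]; positivity
  rw [Real.sqrt_le_left Lg0, Real.log_le_iff_le_exp H0, hLg, div_pow,
    Real.sq_sqrt (by linarith)]
  refine b6.trans (le_of_eq ?_)
  congr 1
  ring

theorem num_eta {ϑ δ η : ℝ} {R l m : ℕ} (ϑ2 : ϑ * 2 ^ R = 1) (hδ : δ = ϑ / 20000)
    (hη : η = δ / (2 * ((l : ℝ) + 1))) (h : R + 16 + l ≤ m) :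
    1 ≤ η * 2 ^ m ∧ 1 ≤ δ * 2 ^ m := by
  have l0 : (0 : ℝ) < (l : ℝ) + 1 := by positivity
  have l1 : (l : ℝ) + 1 ≤ 2 ^ l := by exact_mod_cast Nat.lt_two_pow_self
  have x0 : (0 : ℝ) < 2 ^ R := by positivity
  have ϑ0 : 0 < ϑ := (mul_pos_iff_of_pos_right x0).1 (by rw [ϑ2]; exact one_pos)
  have m1 : (2 : ℝ) ^ (R + 16 + l) ≤ 2 ^ m := pow_le_pow_right₀ one_le_two h
  have m2 : ϑ * 2 ^ (R + 16 + l) = 65536 * 2 ^ l := by
    rw [pow_add, pow_add, ← mul_assoc, ← mul_assoc, ϑ2]; norm_num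
  have m3 := mul_le_mul_of_nonneg_left m1 ϑ0.le
  rw [m2] at m3
  constructor
  · rw [hη, hδ, div_div, div_mul_eq_mul_div, one_le_div (by positivity)]
    linarith
  · rw [hδ, div_mul_eq_mul_div, one_le_div (by norm_num)]
    linarith

theorem num_d {ϑ δ η D : ℝ} {R l : ℕ} (ϑ2 : ϑ * 2 ^ R = 1) (hδ : δ = ϑ / 20000)
    (hη : η = δ / (2 * ((l : ℝ) + 1))) (h : 40 * 2 ^ (2 * R + 31) * ((l : ℝ) + 1) ≤ D) :
    40 / (η * δ) ≤ D := by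
  have l0 : (0 : ℝ) < (l : ℝ) + 1 := by positivity
  have x0 : (0 : ℝ) < 2 ^ R := by positivity
  have e : ϑ = 1 / 2 ^ R := by rw [eq_div_iff x0.ne']; exact ϑ2
  refine le_trans ?_ h
  rw [hη, hδ, e, pow_add, mul_comm 2 R, pow_mul]
  generalize (2 : ℝ) ^ R = X at x0
  rw [show 40 / (1 / X / 20000 / (2 * ((l : ℝ) + 1)) * (1 / X / 20000))
    = 40 * (X ^ 2 * 800000000) * ((l : ℝ) + 1) by field_simp; ring]
  gcongr
  norm_num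

theorem num_n {x y al n : ℝ} {a D Z G : ℕ} (hn : n = 2 ^ D) (hx : x ≤ 2 ^ a * n ^ 2) (hy : y ≤ 2 ^ Z)
    (y0 : 0 ≤ y) (al1 : al ≤ 1) (h1 : a + 2 * D + 1 ≤ G) (h2 : Z + 1 ≤ G) :
    x + al * y ≤ 2 ^ G := by
  have e1 : (2 : ℝ) ^ (a + 2 * D + 1) ≤ 2 ^ G := pow_le_pow_right₀ one_le_two h1
  have e2 : (2 : ℝ) ^ (Z + 1) ≤ 2 ^ G := pow_le_pow_right₀ one_le_two h2
  rw [pow_succ, pow_add, mul_comm 2 D, pow_mul, ← hn] at e1
  rw [pow_succ] at e2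
  nlinarith [mul_le_mul_of_nonneg_right al1 y0]

theorem num_h {V x H : ℝ} {S : ℕ} (h4 : 4 ≤ S) (h1 : V + 3 ≤ 2 ^ S) (h2 : x ≤ 2 ^ S)
    (h3 : (2 : ℝ) ^ (8 * S) ≤ H) : 3 + V + x ≤ H := by
  have e : (2 : ℝ) ^ (S + 1) ≤ 2 ^ (8 * S) := pow_le_pow_right₀ one_le_two (by omega)
  rw [pow_succ] at e
  linarith

end Level2Aux

open LevelAux in
theorem level2_pf (hA : AtomK2Stmt) (hE : Emb2Stmt) (hC : CellStmt) (h1 : LevAStmt) (h2 : LevBStmt)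
    (h3 : LevCStmt) (h4 : LevG2Stmt) (h5 : LevNumStmt) : Level2Stmt := by
  intro V ρ e κ R l S d hV hρ he hκ hR hI s1 s2 s3 s4
  obtain ⟨i1, i2, i3, i4, i5, i6, i7, i8, i9, i10⟩ := hI
  obtain ⟨K, hRK, k2, k3, k4, k5, k6, k7⟩ := h5 R l S hR s1
  clear s1
  generalize 4000000000 * S = G at k3 k4 ⊢
  obtain ⟨ϑ, hϑ⟩ : ∃ ϑ : ℝ, ϑ = (1 / 2) ^ R := ⟨_, rfl⟩
  rw [← hϑ]
  have ϑ0 : 0 < ϑ := by rw [hϑ]; positivity
  have ϑ1 : ϑ ≤ 1 := by rw [hϑ]; exact pow_le_one₀ (by norm_num) (by norm_num)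
  have ϑ2 : ϑ * 2 ^ R = 1 := by rw [hϑ, ← mul_pow]; norm_num
  obtain ⟨δ, hδ⟩ : ∃ δ : ℝ, δ = ϑ / 20000 := ⟨_, rfl⟩
  have δ0 : 0 < δ := by rw [hδ]; positivity
  have l0 : (0 : ℝ) < (l : ℝ) + 1 := by positivity
  obtain ⟨η, hη⟩ : ∃ η : ℝ, η = δ / (2 * ((l : ℝ) + 1)) := ⟨_, rfl⟩
  have η0 : 0 < η := by rw [hη]; positivity
  have R1 : (1 : ℝ) ≤ R := by exact_mod_cast hR
  obtain ⟨a, ha⟩ := hA R K (8 * S) hR hRK k2
  generalize DD R K + Ex K (DD R K) + 8 * S + 3 = Z at ha k3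
  generalize DD R K = D at ha k4 k5 k7
  clear k2
  have RD : (R : ℝ) ≤ D := by exact_mod_cast (by omega : R ≤ D)
  have D0 : (0 : ℝ) < D := by linarith
  have hn1 : 1 ≤ 2 ^ D := Nat.one_le_two_pow
  have hcast : ((2 ^ D : ℕ) : ℝ) = 2 ^ D := by push_cast; rfl
  have hcz : ((2 ^ D : ℕ) : ℤ) = 2 ^ D := by push_cast; rfl
  have S4 : 4 ≤ S := by omega
  obtain ⟨g1, g2⟩ := Level2Aux.num_eta ϑ2 hδ hη k6
  have g3 := (Level2Aux.num_eta ϑ2 hδ hη k7).1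
  have g4 : 40 / (η * δ) ≤ D := Level2Aux.num_d ϑ2 hδ hη (by exact_mod_cast k5)
  clear k5
  have ha' := ha
  obtain ⟨b1, b2, b3, b4, b5, b6, b7, b8, b9, b10, b11, b12, -⟩ := ha'
  obtain ⟨F, p, p1, f1, f2, f4, f3⟩ := hE d.c d.Dg S (2 ^ D) δ η a.L a.Dg i1 S4 s3 s4 g2 g1 hn1
    (by rw [hcz]; exact b2) (by rw [hcz]; exact b3)
  obtain ⟨al, hal⟩ : ∃ al : ℝ, al * D = ϑ := ⟨ϑ / D, div_mul_cancel₀ _ D0.ne'⟩
  have al0 : 0 < al := (mul_pos_iff_of_pos_right D0).1 (by rw [hal]; exact ϑ0)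
  have al1 : al ≤ 1 := le_of_mul_le_mul_right (by linarith) D0
  have z1 : ∀ j < 2 ^ D, 0 ≤ al * a.P j / 51 ∧ al * a.P j / 51 ≤ 1 := fun j hj => by
    obtain ⟨u1, u2, -⟩ := b8 j hj
    refine ⟨by positivity, ?_⟩
    have := mul_le_mul_of_nonneg_left u2 al0.le
    have e1 : al * (2 ^ (R + 4) * D) = 16 * (ϑ * 2 ^ R) := by rw [← hal]; ring
    rw [e1, ϑ2] at this
    linarith only [this]
  have q1 : ∀ j < 2 ^ D, 0 ≤ al * a.Q j / 3 := fun j hj => by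
    have := (b8 j hj).2.2
    positivity
  have sR : 0 < √(R : ℝ) := Real.sqrt_pos.2 (by linarith only [R1])
  have sR1 : √(R : ℝ) ≤ D := num_s R1 RD
  obtain ⟨Lg, hLg⟩ : ∃ Lg : ℝ, Lg = 5000 * D / √(R : ℝ) := ⟨_, rfl⟩
  have Lg0 : 0 ≤ Lg := by rw [hLg]; positivity
  have H0 : 0 < 2 * a.H := mul_pos two_pos (lt_of_lt_of_le (by positivity) b5)
  have lg1 : √(Real.log (2 * a.H)) ≤ Lg := Level2Aux.num_l H0 D0 R1 hLg b6
  obtain ⟨c1, c2⟩ := h3 (2 ^ D) p d.c F a.g d.h V κ a.H al Lg hn1 p1 i4.1 i4.2.1 i4.2.2 hκ i8 i9 f2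
    b4 b7 al0.le al1 (Level2Aux.num_h S4 s2 s3 b5) lg1
  have hηn : 1 / (2 : ℝ) ^ D ≤ η := by
    rw [div_le_iff₀ (by positivity)]
    exact g3
  have hO : al * (40 * 2 ^ R / η) ≤ δ := num_o η0 δ0 D0 hal ϑ2 g4
  refine ⟨⟨F + (al : ℂ) • a.g, a.Dg,
    fun x => d.Y (((2 ^ D : ℕ) : ℝ) * p * x) + al * a.P (cl (2 ^ D) x) / 51,
    fun x => d.Er (((2 ^ D : ℕ) : ℝ) * p * x) + al * a.Q (cl (2 ^ D) x) / 3 + 3 * δ +
      ((l : ℝ) + 1) * (Ins (2 ^ D) η)ᶜ.indicator 1 x,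
    fun x => d.h (((2 ^ D : ℕ) : ℝ) * p * x) + al * (Lg + 1) * ‖ev x a.g‖⟩,
    ⟨sup_add f1 (sup_smul _ b1),
    reg_add (reg_dil i2 _ _) (reg_cl hC hn1 (fun j => al * a.P j / 51) fun j hj => (z1 j hj).1),
    reg_add (reg_add (reg_add (reg_dil i3 _ _) (reg_cl hC hn1 (fun j => al * a.Q j / 3) q1))
      (reg_const (by positivity))) (reg_ind hC hn1 η l0.le),
    reg_add (reg_dil i4 _ _) (reg_ev a.g (by positivity)), fun x => ?_, ?_, ?_, ?_, c2, ?_⟩, ?_,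
    b12.trans (Nat.pow_le_pow_right two_pos (by omega))⟩
  · have u1 := (z1 _ ((hC _ hn1).2.2.1 x)).2
    have u2 := i5 (((2 ^ D : ℕ) : ℝ) * p * x)
    rw [Nat.cast_succ]
    exact add_le_add u2 u1
  · have := h1 (2 ^ D) p d.Y (fun j => al * a.P j / 51) ρ (ϑ / 204) hn1 p1 i2.1 i2.2.1 z1 (by
      rw [← Finset.sum_div, ← Finset.mul_sum, hcast, ← hal]
      have := mul_le_mul_of_nonneg_left b9 al0.le
      linarith only [this]) hρ i6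
    rwa [show ϑ / 204 / 2 = ϑ / 408 by ring] at this
  · have := h2 (2 ^ D) p d.Er (fun j => al * a.Q j / 3) e (ϑ / 15000) (3 * δ) ((l : ℝ) + 1) η hn1
      p1 i3.1 i3.2.1 i3.2.2 q1 (by
      rw [← Finset.sum_div, ← Finset.mul_sum, hcast, ← hal]
      have := mul_le_mul_of_nonneg_left b10 al0.le
      linarith only [this]) he (by positivity) l0.le η0.le i7
    exact this.trans (ENNReal.ofReal_le_ofReal (num_e ϑ0 l0 hδ hη))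
  · exact c1.trans (ENNReal.ofReal_le_ofReal (Level2Aux.num_k ϑ0 al0 hal sR sR1 hLg))
  · exact h4 d a F _ R D (8 * S) Z p l al δ η i10 i5 i3.2.2 ha f1 al0.le δ0.le hηn hO
      (fun j hj => (z1 j hj).2) f3
  · refine (nm_add_le _ _).trans ?_
    rw [nm_smul, Complex.norm_real, Real.norm_of_nonneg al0.le]
    exact Level2Aux.num_n hcast f4 b11 (nm_nonneg _) al1 k4 k3

end Vale.Agent.P091Q
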