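import Vale.Agent.P091Q.Stm
import Vale.Agent.P091K.LowR

namespace Vale.Agent.P091Q

open MeasureTheory Real Filter Topology Vale.Agent.P091 Vale.Agent.P091K

theorem lowR2B_pf (h1 : HarmStmt) (h2 : RealKStmt) : LowR2Stmt := by
  intro R D M j0 i C s η y t hD hC hj hj0 hη hy1 hy2 hs ht
  have p0 := Real.pi_pos
  have hn : (1 : ℝ) ≤ 2 ^ D := one_le_pow₀ one_le_two
  have hc : (1 : ℝ) ≤ C.card := by
    have : C.card ≠ 0 := fun h => by
      rw [h, mul_zero] at hC
      exact absurd hC (not_le.2 (by positivity))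
    exact_mod_cast Nat.one_le_iff_ne_zero.2 this
  have η0 : 0 < η := lt_of_lt_of_le (by positivity) hη
  have hr : (2 : ℝ) ^ D ≤ 4 * 2 ^ R * C.card := by
    have : ((2 ^ D : ℕ) : ℝ) ≤ ((2 ^ (R + 2) * C.card : ℕ) : ℝ) := Nat.cast_le.2 hC
    push_cast at this
    rw [pow_add] at this
    linarith
  have hd : (D : ℝ) ≤ 2 ^ D := by exact_mod_cast Nat.lt_two_pow_self.le
  have ht' : |(t : ℝ)| ≤ ((2 : ℝ) ^ D) ^ 2 * 2 ^ i := by exact_mod_cast ht
  have hτ : (1 : ℝ) ≤ 2 ^ i := one_le_pow₀ one_le_two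
  generalize (2 : ℝ) ^ i = τ at hs ht' hτ
  have hH : ∑ j ∈ C.erase j0, 1 / |(j0 : ℝ) - j| ≤ 4 * D :=
    (Finset.sum_le_sum_of_subset_of_nonneg (Finset.erase_subset_erase _ fun j h =>
      Finset.mem_range.2 (hj j h)) fun _ _ _ => by positivity).trans (h1 D j0 hD hj0).2
  have hz := fun j => LowRAux.E_dev D M j0 j (s j) t
  have hn1 : ∀ j : ℕ, ‖E (-((2 : ℤ) ^ D * (M + t))) (2 * π * (j + s j) / 2 ^ D)‖ ≤ 1 :=
    fun j => (norm_E _ _).le
  unfold PP QQ
  generalize E (-((2 : ℤ) ^ D * (M + t))) = W at hz hn1 ⊢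
  generalize (2 : ℝ) ^ D = n at hη hs hn hr hd ht' hz hn1 ⊢
  have n0 : 0 < n := by linarith
  have hs' : ∀ j, |s j| ≤ η / 2 := fun j => by
    refine (hs j).trans (le_trans ?_ (div_le_div_of_nonneg_right hη zero_le_two))
    rw [div_div]
    refine one_div_le_one_div_of_le (by positivity) ?_
    have := le_self_pow₀ hn (by norm_num : 4 ≠ 0)
    have := le_mul_of_one_le_right (by positivity : 0 ≤ 8 * n ^ 4) hτ
    linarith
  have hβ : ∀ j, 2 * π * (|(t : ℝ)| * |s j|) ≤ π / (4 * n ^ 2) := fun j => by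
    have a := mul_le_mul ht' (hs j) (abs_nonneg _) (by positivity)
    refine (mul_le_mul_of_nonneg_left a (by positivity)).trans (le_of_eq ?_)
    have τ0 : τ ≠ 0 := by linarith
    field_simp
    ring
  have k := h2 C j0 (fun j => y - s j) (fun j => dev M (s j) j0 j + π / (4 * n ^ 2))
    (fun j => W (2 * π * (j + s j) / n)) η η0 (by linarith)
    (fun j => by have := abs_le.1 (hs' j); constructor <;> linarith [this.1, this.2]) hn1
    (fun j _ => (hz j).trans (by linarith [hβ j]))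
  have e1 : ∑ j ∈ C.erase j0, (dev M (s j) j0 j + π / (4 * n ^ 2)) / |(j0 : ℝ) - j| =
      ∑ j ∈ C.erase j0, dev M (s j) j0 j / |(j0 : ℝ) - j| +
        π / (4 * n ^ 2) * ∑ j ∈ C.erase j0, 1 / |(j0 : ℝ) - j| := by
    rw [Finset.mul_sum, ← Finset.sum_add_distrib]
    exact Finset.sum_congr rfl fun j _ => by rw [add_div, mul_one_div]
  have e2 : ∑ j ∈ C, (W (2 * π * (j + s j) / n)).re /
      (2 * π * (j0 + y) / n - 2 * π * (j + s j) / n) =
      n / (2 * π) * ∑ j ∈ C, (W (2 * π * (j + s j) / n)).re / ((j0 : ℝ) - j + (y - s j)) := by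
    rw [Finset.mul_sum]
    refine Finset.sum_congr rfl fun j _ => ?_
    rw [show 2 * π * (j0 + y) / n - 2 * π * (j + s j) / n =
      2 * π / n * ((j0 : ℝ) - j + (y - s j)) by ring, ← div_div, div_div_eq_mul_div]
    ring
  rw [e1] at k
  rw [e2]
  exact LowRAux.num hn hc η0 hr hH hd
    (Finset.sum_nonneg fun j _ => div_nonneg (norm_nonneg _) (abs_nonneg _)) k

end Vale.Agent.P091Q
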