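import Vale.Agent.P091Q.Stm
import Vale.Agent.P091E.Glue

namespace Vale.Agent.P091Q

open MeasureTheory Real Filter Topology Vale.Agent.P091 Vale.Agent.P091K

theorem main_of (hP : PhiQStmt) (h1 : Seq2Stmt) (hT : TransStmt) (h2 : H2Stmt) (h3 : H3Stmt)
    (h5 : H5Stmt) (φ : ℝ → ℝ) (hφ : Hyp2 φ) : ∃ f : ℝ → ℂ, Function.Periodic f (2 * π) ∧
    IntervalIntegrable f volume 0 (2 * π) ∧
    (∫⁻ x in Set.Ioc 0 (2 * π), ENNReal.ofReal (φ ‖f x‖)) < ⊤ ∧
    ∀ x : ℝ, ¬ BddAbove (Set.range fun N : ℕ => ‖S f N x‖) := by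
  have hQ := hP φ hφ
  obtain ⟨b, W, β, κ, hc⟩ := h1 _ hQ
  have hb := hc.1
  obtain ⟨τ, hτ⟩ := hT (fun r => (b r).A) (fun r => (hb r).2.2.2.2.1)
    (fun r => (hb r).2.2.2.2.2.1) (fun r => (hb r).2.2.2.2.2.2.1)
  obtain ⟨a1, a2, -⟩ := h2 b τ hb
  have a3 : ∀ᵐ x : ℝ, ¬ BddAbove (Set.range fun N : ℕ => ‖S (FF b τ) N x‖) := by
    filter_upwards [hτ] with x hx
    exact h3 b τ hb x hx
  have a4 := h5 _ b W β κ τ hQ hc
  obtain ⟨g, g1, g2, g3, g4⟩ := Vale.Agent.P091E.upgrade a2 a3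
  refine ⟨fun y => FF b τ y + g y, fun y => by simp only [a1 y, g2 y],
    a2.add (g1.intervalIntegrable _ _), ?_, g4⟩
  have e : ∀ x, ENNReal.ofReal (φ ‖FF b τ x + g x‖) ≤
      ENNReal.ofReal (φ (2 * ‖FF b τ x‖)) + ENNReal.ofReal (φ 4) := fun x => by
    have n := (norm_add_le (FF b τ x) (g x)).trans (add_le_add_right (g3 x) _)
    have n0 := norm_nonneg (FF b τ x)
    rcases le_total ‖FF b τ x‖ 2 with k | k
    · exact (ENNReal.ofReal_le_ofReal (hφ.1 (Set.mem_Ici.2 (norm_nonneg _))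
        (Set.mem_Ici.2 (by norm_num)) (by linarith))).trans le_add_self
    · exact (ENNReal.ofReal_le_ofReal (hφ.1 (Set.mem_Ici.2 (norm_nonneg _))
        (Set.mem_Ici.2 (by linarith)) (by linarith))).trans le_self_add
  refine (lintegral_mono e).trans_lt ?_
  rw [lintegral_add_right _ measurable_const, lintegral_const]
  exact ENNReal.add_lt_top.2 ⟨a4, ENNReal.mul_lt_top ENNReal.ofReal_lt_top (by
    rw [Measure.restrict_apply_univ]; exact measure_Ioc_lt_top)⟩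

end Vale.Agent.P091Q
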