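import Vale.Agent.P091Q.Stm

namespace Vale.Agent.P091Q

open MeasureTheory Real Filter Topology Vale.Agent.P091 Vale.Agent.P091K

namespace PhiQAux

theorem two_exp (y : ℝ) : 2 * Real.exp y ≤ Real.exp (y + 1) := by
  have h : (1 : ℝ) + 1 ≤ Real.exp 1 := Real.add_one_le_exp 1
  rw [Real.exp_add]
  nlinarith [Real.exp_pos y]

theorem exp_succ (y : ℝ) (hy : 0 ≤ y) : Real.exp y + 1 ≤ Real.exp (y + 1) := by
  have h1 := two_exp y
  have h2 := Real.one_le_exp hy
  linarith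

theorem two_eee (R : ℝ) (hR : 0 ≤ R) : 2 * eee R ≤ eee (R + 1) := by
  unfold eee
  have h1 := exp_succ R hR
  have h2 := (exp_succ (Real.exp R) (Real.exp_pos R).le).trans (Real.exp_le_exp.mpr h1)
  exact (two_exp _).trans (Real.exp_le_exp.mpr h2)

theorem lll (v b : ℝ) (h1 : eee 1 ≤ v) (h2 : v ≤ eee b) :
    0 < v ∧ 0 < Real.log v ∧ 1 ≤ Real.log (Real.log (Real.log v)) ∧
      Real.log (Real.log (Real.log v)) ≤ b := by
  unfold eee at h1 h2
  have p0 : 0 < v := (Real.exp_pos _).trans_le h1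
  have a1 := (Real.le_log_iff_exp_le p0).mpr h1
  have p1 : 0 < Real.log v := (Real.exp_pos _).trans_le a1
  have a2 := (Real.le_log_iff_exp_le p1).mpr a1
  have p2 : 0 < Real.log (Real.log v) := (Real.exp_pos _).trans_le a2
  have a3 := (Real.le_log_iff_exp_le p2).mpr a2
  have b1 := (Real.log_le_iff_le_exp p0).mpr h2
  have b2 := (Real.log_le_iff_le_exp p1).mpr b1
  exact ⟨p0, p1, a3, (Real.log_le_iff_le_exp p2).mpr b2⟩

end PhiQAux

open PhiQAux in
theorem phiQ_pf (h : PhiLStmt) : PhiQStmt := by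
  rintro φ ⟨hm, h0, ht⟩
  obtain ⟨-, hu, -, -, -, h3⟩ := h
  refine ⟨fun a ha b hb k => hm (Set.mem_Ici.2 (by linarith [Set.mem_Ici.1 ha]))
    (Set.mem_Ici.2 (by linarith [Set.mem_Ici.1 hb])) (by linarith),
    fun u hu => h0 _ (by linarith), fun ε hε => ?_⟩
  obtain ⟨v0, hv0⟩ := eventually_atTop.mp (ht.eventually (gt_mem_nhds (show 0 < ε / 5 by linarith)))
  have e1 : 0 < eee 1 := Real.exp_pos _
  refine ⟨max v0 (eee 1), e1.le.trans (le_max_right _ _), fun R hR u hu0 huR => ?_⟩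
  have hR' : (1 : ℝ) ≤ R := by exact_mod_cast hR
  have u1 : eee 1 ≤ u := (le_max_right _ _).trans hu0
  have u2 : v0 ≤ u := (le_max_left _ _).trans hu0
  have u3 : 0 < u := e1.trans_le u1
  have u4 := two_eee R (by linarith)
  obtain ⟨p0, p1, p2, p3⟩ := lll (2 * u) (R + 1) (by linarith) (by linarith)
  have k := hv0 (2 * u) (by linarith)
  have s1 : √(Real.log (2 * u) * Real.log (Real.log (Real.log (2 * u)))) ≤
      √(Real.log (3 + 2 * u)) * (3 / 2 * √(R : ℝ)) := by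
    rw [Real.sqrt_mul p1.le]
    refine mul_le_mul (Real.sqrt_le_sqrt (Real.log_le_log p0 (by linarith))) ?_
      (Real.sqrt_nonneg _) (Real.sqrt_nonneg _)
    refine Real.sqrt_le_iff.2 ⟨by positivity, ?_⟩
    rw [mul_pow, Real.sq_sqrt (by linarith)]
    linarith
  have s0 : 0 < 2 * u * √(Real.log (2 * u) * Real.log (Real.log (Real.log (2 * u)))) :=
    mul_pos p0 (Real.sqrt_pos.mpr (mul_pos p1 (by linarith)))
  rw [div_lt_iff₀ s0] at k
  have s2 : 2 * u * √(Real.log (2 * u) * Real.log (Real.log (Real.log (2 * u)))) ≤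
      Ph (2 * u) * (3 / 2 * √(R : ℝ)) := by
    unfold Ph
    rw [mul_assoc (2 * u)]
    exact mul_le_mul_of_nonneg_left s1 p0.le
  have s3 : Ph (2 * u) * (3 / 2 * √(R : ℝ)) ≤ 3 * Ph u * (3 / 2 * √(R : ℝ)) :=
    mul_le_mul_of_nonneg_right (h3 u u3.le) (by positivity)
  have s4 : 0 ≤ ε * √(R : ℝ) * Ph u :=
    mul_nonneg (mul_nonneg hε.le (Real.sqrt_nonneg _)) (u3.le.trans (hu u u3.le))
  have s5 := mul_le_mul_of_nonneg_left (s2.trans s3) (show 0 ≤ ε / 5 by linarith)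
  have s6 : ε / 5 * (3 * Ph u * (3 / 2 * √(R : ℝ))) = 9 / 10 * (ε * √(R : ℝ) * Ph u) := by ring
  show φ (2 * u) ≤ _
  linarith

end Vale.Agent.P091Q
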