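import Vale.Agent.P091Q.Stm

namespace Vale.Agent.P091Q

open MeasureTheory Real Filter Topology Vale.Agent.P091 Vale.Agent.P091K

namespace Seq2Aux

/-- The state after `r` steps. -/
noncomputable def st (w₀ : ℝ) (W' β : ℕ → ℝ → ℝ → ℝ) : ℕ → ℝ × ℝ
  | 0 => (w₀, 0)
  | r + 1 => (W' r (st w₀ W' β r).1 (st w₀ W' β r).2,
      (st w₀ W' β r).2 + β r (st w₀ W' β r).1 (st w₀ W' β r).2)

theorem bk_mono {V V' κ G : ℝ} {b : Blk} (h : Bk V κ G b) (hV : V' ≤ V) : Bk V' κ G b :=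
  ⟨h.1, h.2.1, h.2.2.1, fun u x h1 h2 => h.2.2.2.1 u x h1 (h2.trans hV), h.2.2.2.2⟩

end Seq2Aux

open Seq2Aux in
theorem seq2_pf (h : Step2Stmt) : Seq2Stmt := by
  intro ψ hψ
  obtain ⟨u0, h0, h1⟩ := h ψ hψ
  have hne : Nonempty Blk := ⟨⟨0, 0, fun _ => 0, ∅⟩⟩
  choose! b W' β κ hs using h1
  let S := st (u0 0) W' β
  let B : ℕ → Blk := fun r => b r (S r).1 (S r).2
  let β' : ℕ → ℝ := fun r => β r (S r).1 (S r).2
  have e1 : ∀ r, (S (r + 1)).1 = W' r (S r).1 (S r).2 := fun r => rfl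
  have e2 : ∀ r, (S (r + 1)).2 = (S r).2 + β' r := fun r => rfl
  have inv : ∀ r, u0 r ≤ (S r).1 ∧ 0 ≤ (S r).2 ∧ (S r).2 = ∑ s ∈ Finset.range r, β' s ∧
      ∑ s ∈ Finset.range r, nm (B s).c ≤ (S r).1 := fun r => by
    induction r with
    | zero => exact ⟨le_rfl, le_rfl, rfl, h0 0⟩
    | succ r ih =>
      obtain ⟨a1, a2, a3, a4⟩ := ih
      obtain ⟨-, b2, -, b4, b5, -⟩ := hs r _ _ a1 a2
      rw [e1, e2, Finset.sum_range_succ, Finset.sum_range_succ, ← a3]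
      exact ⟨b5, add_nonneg a2 b2, rfl, by linarith⟩
  refine ⟨B, fun r => (S r).1, β', fun r => κ r (S r).1 (S r).2, fun r => ?_, h0 0, fun r => ?_⟩
  · exact bk_mono (hs r _ _ (inv r).1 (inv r).2.1).1 (inv r).2.2.2
  · obtain ⟨a1, a2, a3, a4⟩ := inv r
    obtain ⟨-, b2, b3, b4, -, b6, b7, b8⟩ := hs r _ _ a1 a2
    have hn : 0 ≤ nm (B r).c := Finset.sum_nonneg fun _ _ => norm_nonneg _
    refine ⟨b2, b3, a4, ?_, b6, ?_, b8⟩
    · show (S r).1 + 1 ≤ W' r (S r).1 (S r).2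
      linarith
    · rw [Finset.sum_range_succ, ← a3]
      exact b7

end Vale.Agent.P091Q
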