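import Vale.Agent.P091Q.Stm

/-! One step of the quantitative series. -/

namespace Vale.Agent.P091Q

open MeasureTheory Real Filter Topology Vale.Agent.P091 Vale.Agent.P091K

namespace Step2Aux

theorem big (R0 : ℕ) (c : ℝ) : ∃ R : ℕ, R0 ≤ R ∧ 1 ≤ R ∧ c ≤ √(R : ℝ) := by
  obtain ⟨N, hN⟩ := exists_nat_ge (c ^ 2)
  refine ⟨N + R0 + 1, by omega, by omega, Real.le_sqrt_of_sq_le (hN.trans ?_)⟩
  exact_mod_cast (by omega : N ≤ N + R0 + 1)

theorem num {A x s Bs : ℝ} (hA : 0 < A) (hx : 0 < x) (hs : 0 < s) (hB : 0 ≤ Bs)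
    (h : A * (1 + Bs) / x ≤ s) : A / s ≤ 2 * x ∧ (Bs + x / A * s) * (A / s) ≤ 2 * x := by
  rw [div_le_iff₀ hx] at h
  have h1 : A / s * (1 + Bs) ≤ x := by
    rw [div_mul_eq_mul_div, div_le_iff₀ hs]
    linarith
  have h2 : 0 ≤ A / s := by positivity
  have h3 : x / A * s * (A / s) = x := by field_simp
  have h4 := mul_nonneg h2 hB
  constructor
  · linarith
  · rw [add_mul, h3]
    linarith

end Step2Aux

theorem step2_pf (h : Sup2Stmt) : Step2Stmt := by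
  rintro ψ ⟨-, -, hψ⟩
  have hA : ∀ r : ℕ, (0 : ℝ) < 27000000 * ((2 * r + 2 : ℕ) : ℝ) := fun r => by positivity
  choose u0 h0 hu using fun r : ℕ =>
    hψ ((1 / 2) ^ (r + 1) / (27000000 * ((2 * r + 2 : ℕ) : ℝ))) (div_pos (by positivity) (hA r))
  refine ⟨u0, h0, fun r W Bs hW hB => ?_⟩
  have hW0 : 0 ≤ W := (h0 r).trans hW
  have h1 := h0 (r + 1)
  obtain ⟨R0, hR0⟩ := h (W + u0 (r + 1) + 1) (2 * r + 2) (by linarith) (by omega)
  obtain ⟨R, r1, r2, r3⟩ := Step2Aux.big R0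
    (27000000 * ((2 * r + 2 : ℕ) : ℝ) * (1 + Bs) / (1 / 2) ^ (r + 1))
  obtain ⟨b, ⟨b1, b2, b3, b4, b5, b6, b7, b8⟩, b9⟩ := hR0 R r1
  have hs : 0 < √(R : ℝ) := Real.sqrt_pos.2 (Nat.cast_pos.2 r2)
  obtain ⟨n1, n2⟩ := Step2Aux.num (hA r) (by positivity) hs hB r3
  have e : 2 * (1 / 2 : ℝ) ^ (r + 1) = (1 / 2) ^ r := by
    rw [pow_succ]
    ring
  rw [e] at n1 n2
  have hm := nm_nonneg b.c
  refine ⟨b, W + u0 (r + 1) + 1 + nm b.c, _, _, ⟨b1, b2, b3.trans (ENNReal.ofReal_le_ofReal n1),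
    fun u x hu0 hu1 => b4 u x hu0 (by linarith), b5, b6, b7, fun x hx => ?_⟩,
    by positivity, by positivity, by linarith, by linarith, b3, n2,
    fun u u1 u2 => hu r R r2 u (by linarith) (u2.trans b9)⟩
  obtain ⟨N, c1, c2, c3⟩ := b8 x hx
  refine ⟨N, c1, c2, le_trans ?_ c3⟩
  push_cast
  linarith

end Vale.Agent.P091Q
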