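import Vale.Agent.P091Q.Stm

namespace Vale.Agent.P091Q

open MeasureTheory Real Filter Topology Vale.Agent.P091 Vale.Agent.P091K

namespace Sup2Aux

theorem nn (R l : ℕ) : 0 ≤ 2 * π * Real.exp (-(l * (1 / 2) ^ R / 408)) ∧
    (0 : ℝ) ≤ l * (1 / 2) ^ R / 500 ∧ (0 : ℝ) ≤ l * (32000 * (1 / 2) ^ R / √(R : ℝ)) :=
  ⟨by positivity, by positivity, by positivity⟩

theorem iter (h : Level2Stmt) (V : ℝ) (R S0 G : ℕ) (hS : S0 = 2 ^ (4 * R + 80))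
    (hG : G = 4000000000) (hV : 0 ≤ V) (hR : 1 ≤ R) (hV3 : V + 3 ≤ 2 ^ S0) (l : ℕ) :
    ∃ d : Dat, Inv V l (2 * π * Real.exp (-(l * (1 / 2) ^ R / 408))) (l * (1 / 2) ^ R / 500)
      (l * (32000 * (1 / 2) ^ R / √(R : ℝ))) d ∧
      nm d.c ≤ 2 ^ (S0 * G ^ l) ∧ d.Dg + 2 ≤ 2 ^ (S0 * G ^ l) := by
  have z : Reg fun _ => (0 : ℝ) := ⟨measurable_const, fun _ => rfl, fun _ => le_rfl⟩
  have hS1 : 1 ≤ S0 := by rw [hS]; exact Nat.one_le_two_pow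
  have hG4 : 4 ≤ G := by omega
  induction l with
  | zero =>
    refine ⟨⟨0, 0, fun _ => 0, fun _ => 0, fun _ => 0⟩, ⟨fun k hk => by simp at hk, z, z, z,
      fun x => by simp, ?_, by simp [LI], by simp [LI], fun u x _ _ => by simp,
      fun x => ⟨0, le_rfl, by simp, by simp [gn]⟩⟩, ?_, ?_⟩
    · simp [LI]
    · have : nm (0 : TP) = 0 := by simp [nm]
      rw [this]
      positivity
    · rw [pow_zero, mul_one]
      calc 0 + 2 = 2 ^ 1 := by norm_num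
        _ ≤ 2 ^ S0 := Nat.pow_le_pow_right (by norm_num) hS1
  | succ l ih =>
    obtain ⟨d, hd, n1, n2⟩ := ih
    have k1 : 2 ^ (4 * R + 80) * 4 ^ l ≤ S0 * G ^ l := by
      rw [← hS]
      exact Nat.mul_le_mul_left _ (Nat.pow_le_pow_left hG4 l)
    have k2 : V + 3 ≤ 2 ^ (S0 * G ^ l) :=
      hV3.trans (pow_le_pow_right₀ (by norm_num)
        (Nat.le_mul_of_pos_right _ (Nat.pow_pos (by omega))))
    obtain ⟨d', hd', m1, m2⟩ := h V _ _ _ R l (S0 * G ^ l) d hV (nn R l).1 (nn R l).2.1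
      (nn R l).2.2 hR hd k1 k2 n1 n2
    have e0 : 4000000000 * (S0 * G ^ l) = S0 * G ^ (l + 1) := by
      rw [← hG]
      ring
    rw [e0] at m1 m2
    have e1 : 2 * π * Real.exp (-((l : ℝ) * (1 / 2) ^ R / 408)) *
        Real.exp (-((1 / 2) ^ R / 408)) =
        2 * π * Real.exp (-(((l + 1 : ℕ) : ℝ) * (1 / 2) ^ R / 408)) := by
      rw [mul_assoc (2 * π), ← Real.exp_add]
      refine congrArg (fun t => 2 * π * Real.exp t) ?_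
      push_cast
      ring
    have e2 : (l : ℝ) * (1 / 2) ^ R / 500 + (1 / 2) ^ R / 500 =
        ((l + 1 : ℕ) : ℝ) * (1 / 2) ^ R / 500 := by
      push_cast
      ring
    have e3 : (l : ℝ) * (32000 * (1 / 2) ^ R / √(R : ℝ)) + 32000 * (1 / 2) ^ R / √(R : ℝ) =
        ((l + 1 : ℕ) : ℝ) * (32000 * (1 / 2) ^ R / √(R : ℝ)) := by
      push_cast
      ring
    rw [e1, e2, e3] at hd'
    exact ⟨d', hd', m1, m2⟩

theorem big (V : ℝ) (R : ℕ) (h : V + 3 ≤ R) : V + 3 ≤ 2 ^ (2 ^ (4 * R + 80)) := by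
  have h1 : R ≤ 2 ^ (4 * R + 80) :=
    (Nat.lt_two_pow_self (n := R)).le.trans (Nat.pow_le_pow_right (by norm_num) (by omega))
  have h2 : (R : ℝ) ≤ 2 ^ R := by exact_mod_cast (Nat.lt_two_pow_self (n := R)).le
  exact h.trans (h2.trans (pow_le_pow_right₀ (by norm_num) h1))

theorem fin (V m : ℝ) (S0 P : ℕ) (hP : 0 < P) (h1 : V + 3 ≤ 2 ^ S0) (h2 : m ≤ 2 ^ (S0 * P)) :
    2 * (V + m) ≤ 2 ^ (S0 * P + 2) := by
  have h3 : (2 : ℝ) ^ S0 ≤ 2 ^ (S0 * P) :=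
    pow_le_pow_right₀ (by norm_num) (Nat.le_mul_of_pos_right _ hP)
  rw [pow_add]
  linarith

end Sup2Aux

theorem iter2_pf (h : Level2Stmt) : Iter2Stmt := fun V R l hV hR h3 =>
  Sup2Aux.iter h V R _ _ rfl rfl hV hR h3 l

theorem sup2_pf (h1 : Iter2Stmt) (h2 : MarkStmt) (h3 : SupNumStmt) : Sup2Stmt := by
  intro V T hV hT
  obtain ⟨R0, hR0⟩ := h3 T
  obtain ⟨R1, hR1⟩ := exists_nat_ge (V + 3)
  refine ⟨R0 + R1 + 1, fun R hR => ?_⟩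
  have T1 : (1 : ℝ) ≤ T := by exact_mod_cast hT
  have R1' : 1 ≤ R := by omega
  have s0 : 0 < √(R : ℝ) := Real.sqrt_pos.2 (by exact_mod_cast R1')
  have hb : V + 3 ≤ 2 ^ (2 ^ (4 * R + 80)) :=
    Sup2Aux.big V R (hR1.trans (by exact_mod_cast (by omega : R1 ≤ R)))
  obtain ⟨d, ⟨i1, i2, i3, i4, -, i6, i7, i8, i9, i10⟩, n1, -⟩ :=
    h1 V R (816 * T * 2 ^ R) hV R1' hb
  have e : ((816 * T * 2 ^ R : ℕ) : ℝ) * (1 / 2) ^ R = 816 * T := by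
    push_cast
    rw [mul_assoc, ← mul_pow]
    norm_num
  rw [e, show (816 : ℝ) * T / 408 = 2 * T by ring] at i6
  rw [e] at i7
  have e2 : ((816 * T * 2 ^ R : ℕ) : ℝ) * (32000 * (1 / 2) ^ R / √(R : ℝ)) ≤
      27000000 * T / √(R : ℝ) := by
    rw [show ((816 * T * 2 ^ R : ℕ) : ℝ) * (32000 * (1 / 2) ^ R / √(R : ℝ)) =
      ((816 * T * 2 ^ R : ℕ) : ℝ) * (1 / 2) ^ R * 32000 / √(R : ℝ) by ring, e]
    exact div_le_div_of_nonneg_right (by linarith) s0.le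
  refine ⟨⟨d.c, d.Dg, d.h, {x | (T : ℝ) / 2 ≤ d.Y x - d.Er x}⟩, ⟨i1, i4,
    i8.trans (ENNReal.ofReal_le_ofReal e2), i9,
    measurableSet_le measurable_const (i2.1.sub i3.1), fun x => ?_,
    h2 d.Y d.Er T _ i2.1 i3.1 i3.2.2 T1 (by linarith) i6 i7, fun x hx => ?_⟩, ?_⟩
  · simp only [Set.mem_setOf_eq, i2.2.1 x, i3.2.1 x]
  · obtain ⟨N, n1, n2, n3⟩ := i10 x
    exact ⟨N, n1, n2, le_trans hx (n3.trans (gn_le _ _ _))⟩
  · exact (Sup2Aux.fin V _ _ _ (Nat.pow_pos (by norm_num)) hb n1).trans (hR0 R (by omega))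

end Vale.Agent.P091Q
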