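import Vale.Agent.P091Q.Stm

namespace Vale.Agent.P091Q

open MeasureTheory Real Filter Topology Vale.Agent.P091 Vale.Agent.P091K

namespace SupNumAux

theorem e27 : (27 / 10 : ℝ) ≤ Real.exp 1 := by
  have := Real.exp_one_gt_d9
  linarith

theorem pow_le_exp (a : ℝ) (c : ℝ) (ha : 0 ≤ a) (h : a ≤ Real.exp c) (m : ℕ) :
    a ^ m ≤ Real.exp (c * m) := by
  rw [mul_comm, Real.exp_nat_mul]
  exact pow_le_pow_left₀ ha h m

theorem two_le : (2 : ℝ) ≤ Real.exp 1 := le_trans (by norm_num) e27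

theorem g_le : (4000000000 : ℝ) ≤ Real.exp 23 := by
  have h := pow_le_pow_left₀ (by norm_num : (0 : ℝ) ≤ 27 / 10) e27 23
  rw [← Real.exp_nat_mul] at h
  have h2 : (4000000000 : ℝ) ≤ (27 / 10) ^ 23 := by norm_num
  simpa using h2.trans h

theorem step1 (a L : ℕ) (ha : 1 ≤ a) :
    ((2 ^ a * 4000000000 ^ L + 2 : ℕ) : ℝ) ≤ Real.exp (a + 1 + 23 * L) := by
  have h1 := pow_le_exp 2 1 (by norm_num) two_le a
  have h2 := pow_le_exp 4000000000 23 (by norm_num) g_le L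
  have h3 : (2 : ℝ) ≤ 2 ^ a := by
    calc (2 : ℝ) = 2 ^ 1 := by norm_num
      _ ≤ 2 ^ a := pow_le_pow_right₀ (by norm_num) ha
  have h4 : (1 : ℝ) ≤ 4000000000 ^ L := one_le_pow₀ (by norm_num)
  have h5 : ((2 ^ a * 4000000000 ^ L + 2 : ℕ) : ℝ) = (2 : ℝ) ^ a * 4000000000 ^ L + 2 := by
    rw [Nat.cast_add, Nat.cast_mul, Nat.cast_pow, Nat.cast_pow]
    norm_num
  rw [h5, Real.exp_add, Real.exp_add]
  rw [one_mul] at h1
  generalize (2 : ℝ) ^ a = x at *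
  generalize (4000000000 : ℝ) ^ L = y at *
  have h6 := two_le
  have h7 : x * y ≤ Real.exp a * Real.exp (23 * L) :=
    mul_le_mul h1 h2 (by linarith) (Real.exp_pos _).le
  have h8 : 2 ≤ x * y := by nlinarith
  have h9 : 0 ≤ Real.exp a * Real.exp (23 * L) := by positivity
  calc x * y + 2 ≤ 2 * (x * y) := by linarith
    _ ≤ Real.exp 1 * (Real.exp a * Real.exp (23 * L)) :=
        mul_le_mul h6 h7 (by linarith) (Real.exp_pos _).le
    _ = _ := by ring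

theorem step2 (T : ℕ) : ∃ R0 : ℕ, ∀ R : ℕ, R0 ≤ R →
    (85 + 18768 * T : ℝ) * 2 ^ R ≤ Real.exp R := by
  have h := tendsto_pow_atTop_atTop_of_one_lt (show (1 : ℝ) < 27 / 20 by norm_num)
  obtain ⟨R0, hR⟩ := Filter.eventually_atTop.1 (h.eventually_ge_atTop (85 + 18768 * T : ℝ))
  refine ⟨R0, fun R hRR => ?_⟩
  have h1 := pow_le_exp (27 / 10) 1 (by norm_num) e27 R
  rw [one_mul] at h1
  calc (85 + 18768 * T : ℝ) * 2 ^ R ≤ (27 / 20) ^ R * 2 ^ R :=
        mul_le_mul_of_nonneg_right (hR R hRR) (by positivity)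
    _ = (27 / 10) ^ R := by rw [← mul_pow]; norm_num
    _ ≤ _ := h1

end SupNumAux

open SupNumAux in
theorem supNum_pf : SupNumStmt := by
  intro T
  obtain ⟨R0, hR⟩ := step2 T
  refine ⟨R0, fun R hRR => ?_⟩
  have h1 := step1 (4 * R + 80) (816 * T * 2 ^ R) (by omega)
  have h2 := pow_le_exp 2 1 (by norm_num) two_le
    (2 ^ (4 * R + 80) * 4000000000 ^ (816 * T * 2 ^ R) + 2)
  rw [one_mul] at h2
  refine h2.trans (Real.exp_le_exp.2 (h1.trans (Real.exp_le_exp.2 ?_)))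
  refine le_trans ?_ (hR R hRR)
  have h3 : (R : ℝ) ≤ 2 ^ R := by exact_mod_cast (Nat.lt_two_pow_self (n := R)).le
  have h4 : (1 : ℝ) ≤ 2 ^ R := one_le_pow₀ (by norm_num)
  push_cast
  generalize (2 : ℝ) ^ R = x at *
  nlinarith

end Vale.Agent.P091Q
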