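import Vale.Agent.P091K.Main
import Vale.Agent.P091Q.Emb2
import Vale.Agent.P091Q.LevNum
import Vale.Agent.P091Q.AtomK2
import Vale.Agent.P091Q.H5a
import Vale.Agent.P091Q.Step2
import Vale.Agent.P091Q.PhiQ
import Vale.Agent.P091Q.Chi2
import Vale.Agent.P091Q.SupNum
import Vale.Agent.P091Q.Sup2
import Vale.Agent.P091Q.Seq2
import Vale.Agent.P091Q.LowR2B
import Vale.Agent.P091Q.LowK2
import Vale.Agent.P091Q.AtNum2
import Vale.Agent.P091Q.LevG2
import Vale.Agent.P091Q.Tail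
import Vale.Agent.P091Q.H5
import Vale.Agent.P091Q.Level2
import Vale.Agent.P091Q.MainA

namespace Vale.Agent.P091Q

open MeasureTheory Real Filter Topology Vale.Agent.P091 Vale.Agent.P091K

theorem atomK2_all : AtomK2Stmt :=
  atomK2_pf (canA_pf cnt_pf) (canS_pf (canB_pf cnt_pf))
    (errK_pf (bits_pf bitsA_pf) harm_pf errP_pf (errC_pf avg_pf (errW_pf (node_pf harm_pf))))
    (gkN_pf fejA_pf fejB_pf (fejC_pf fejA_pf))
    (lowK2_pf (gkP_pf ker_pf abel_pf) (lowR2B_pf harm_pf realK_pf)) (pAvg_pf harm_pf) atNum2_pf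
    gkM_pf

theorem level2_all : Level2Stmt :=
  have hI := ind_pf cell_pf indA_pf
  level2_pf atomK2_all
    (emb2_pf (chi2_pf fejA_pf fejB_pf (fejC_pf fejA_pf)) nest1_pf nest2_pf align_pf nestN_pf)
    cell_pf (levA_pf cell_pf hI) (levB_pf cell_pf hI (cellV_pf hI)) (levC_pf phiL_pf cell_pf hI)
    (levG2_pf cell_pf) levNum_pf

theorem main_all (φ : ℝ → ℝ) (hφ : Hyp2 φ) : ∃ f : ℝ → ℂ, Function.Periodic f (2 * π) ∧
    IntervalIntegrable f volume 0 (2 * π) ∧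
    (∫⁻ x in Set.Ioc 0 (2 * π), ENNReal.ofReal (φ ‖f x‖)) < ⊤ ∧
    ∀ x : ℝ, ¬ BddAbove (Set.range fun N : ℕ => ‖S f N x‖) :=
  main_of (phiQ_pf phiL_pf) (seq2_pf (step2_pf (sup2_pf (iter2_pf level2_all) mark_pf supNum_pf)))
    (trans_pf (transB_pf transA_pf)) (h2_pf phiL_pf) (h3_pf sPoly_pf (h2_pf phiL_pf))
    (h5_pf (h5a_pf phiL_pf (tail_pf phiL_pf))) φ hφ

end Vale.Agent.P091Q
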