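import Vale.Agent.P091K.Stm

namespace Vale.Agent.P091Q

open MeasureTheory Real Filter Topology Vale.Agent.P091 Vale.Agent.P091K

theorem nm_eq {c : TP} {T : Finset ℤ} (h : c.support ⊆ T) : nm c = ∑ k ∈ T, ‖c k‖ :=
  Finset.sum_subset h fun k _ hk => by simp [Finsupp.notMem_support_iff.1 hk]

theorem nm_add_le (c d : TP) : nm (c + d) ≤ nm c + nm d := by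
  rw [nm_eq (Finsupp.support_add (g₁ := c) (g₂ := d)), nm_eq (Finset.subset_union_left (s₂ := d.support)),
    nm_eq (Finset.subset_union_right (s₁ := c.support)), ← Finset.sum_add_distrib]
  exact Finset.sum_le_sum fun k _ => norm_add_le _ _

theorem nm_single (k : ℤ) (z : ℂ) : nm (Finsupp.single k z) = ‖z‖ := by
  rw [nm_eq Finsupp.support_single_subset]; simp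

theorem nm_smul (z : ℂ) (c : TP) : nm (z • c) = ‖z‖ * nm c := by
  rw [nm_eq (Finsupp.support_smul (b := z) (g := c)), nm, Finset.mul_sum]
  exact Finset.sum_congr rfl fun k _ => by simp

theorem nm_sum_le {ι : Type} (T : Finset ι) (c : ι → TP) :
    nm (∑ i ∈ T, c i) ≤ ∑ i ∈ T, nm (c i) :=
  Finset.le_sum_of_subadditive nm (by simp [nm]) nm_add_le T c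

def Chi2Stmt : Prop := ∀ n M : ℕ, 1 ≤ n → 1 ≤ M → ∃ (χ : ℕ → TP) (r : ℕ → ℝ → ℝ),
  (∀ j, Sup (χ j) (-(M : ℤ)) M) ∧ (∀ j x, ev x (χ j) = (r j x : ℂ)) ∧ (∀ j x, 0 ≤ r j x) ∧
  (∀ x, ∑ j ∈ Finset.range n, r j x = 1) ∧ ∑ j ∈ Finset.range n, nm (χ j) ≤ 2 * M + 1 ∧
  ∀ (η y : ℝ) (j0 : ℕ), 0 < η → η ≤ y → y ≤ 1 - η → j0 < n →
    1 - r j0 (2 * π * (j0 + y) / n) ≤ (n : ℝ) ^ 2 / (4 * M * η ^ 2)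

def NestNStmt : Prop := ∀ (c : TP) (χ : ℕ → TP) (L : ℕ → ℤ) (n : ℕ) (w : ℤ),
  nm (nest c χ L n w) ≤ nm c * ∑ j ∈ Finset.range n, nm (χ j)

def GkMStmt : Prop := ∀ (M : ℕ) (L0 : ℤ) (C : Finset ℕ) (p : ℕ → ℝ), 1 ≤ M → C.Nonempty →
  nm (gk M L0 C p) ≤ 2 * M + 1

def Emb2Stmt : Prop := ∀ (c : TP) (Dg S n : ℕ) (δ η : ℝ) (L : ℕ → ℤ) (B : ℤ), Sup c 0 Dg → 4 ≤ S →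
  nm c ≤ 2 ^ S → Dg + 2 ≤ 2 ^ S → 1 ≤ δ * 2 ^ S → 1 ≤ η * 2 ^ S → 1 ≤ n →
  (∀ j, (n : ℤ) ^ 3 * 2 ^ (8 * S) ≤ L j ∧ L j + (n : ℤ) ^ 3 * 2 ^ (8 * S) ≤ B) →
  (∀ i j, L i ≠ L j → 2 * ((n : ℤ) ^ 3 * 2 ^ (8 * S)) ≤ |L i - L j|) →
  ∃ (F : TP) (p : ℕ), 1 ≤ p ∧ Sup F 0 B ∧ (∀ x : ℝ, ‖ev x F‖ ≤ ‖ev ((n : ℝ) * p * x) c‖) ∧
    nm F ≤ 2 ^ (5 * S + 2) * (n : ℝ) ^ 2 ∧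
    ∀ (y : ℝ) (j0 : ℕ) (N : ℤ), η ≤ y → y ≤ 1 - η → j0 < n → 0 ≤ N → N ≤ Dg + 1 →
      ∃ t : ℤ, |t| ≤ (n : ℤ) ^ 2 * 2 ^ (8 * S) ∧
        gn N ((n : ℝ) * p * (2 * π * (j0 + y) / n)) c - 2 * δ ≤
          gn (L j0 + n * t) (2 * π * (j0 + y) / n) F

def LowR2Stmt : Prop := ∀ (R D M j0 i : ℕ) (C : Finset ℕ) (s : ℕ → ℝ) (η y : ℝ) (t : ℤ), 2 ≤ D →
  2 ^ D ≤ 2 ^ (R + 2) * C.card → (∀ j ∈ C, j < 2 ^ D) → j0 < 2 ^ D → 1 / 2 ^ D ≤ η → η ≤ y →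
  y ≤ 1 - η → (∀ j, |s j| ≤ 1 / (8 * ((2 : ℝ) ^ D) ^ 4 * 2 ^ i)) →
  |t| ≤ ((2 : ℤ) ^ D) ^ 2 * 2 ^ i →
  PP D C j0 / (4 * π) - (QQ D C M s j0 / 3 + 1 + 4 * 2 ^ R / η) ≤
    (1 / C.card : ℝ) * ∑ j ∈ C,
      (E (-((2 : ℤ) ^ D * (M + t))) (2 * π * (j + s j) / 2 ^ D)).re /
        (2 * π * (j0 + y) / 2 ^ D - 2 * π * (j + s j) / 2 ^ D)

def LowK2Stmt : Prop := ∀ (R D M j0 N Rr i : ℕ) (L0 : ℤ) (C : Finset ℕ) (s : ℕ → ℝ) (η y : ℝ)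
  (t : ℤ), 2 ≤ D → 2 ^ D ≤ 2 ^ (R + 2) * C.card → (∀ j ∈ C, 2 ^ D ≤ 4 * j ∧ 2 * j < 2 ^ D) →
  j0 < 2 ^ D → 1 / 2 ^ D ≤ η → η ≤ y → y ≤ 1 - η →
  (∀ j, |s j| ≤ 1 / (8 * ((2 : ℝ) ^ D) ^ 4 * 2 ^ i)) → |t| ≤ ((2 : ℤ) ^ D) ^ 2 * 2 ^ i →
  (N : ℤ) = L0 + 2 ^ D * (M + t) → Rr ≤ 4 * N → N ≤ Rr → 4 * (2 ^ D) ^ 4 ≤ Rr →
  PP D C j0 / 51 - QQ D C M s j0 / 3 - 40 * 2 ^ R / η ≤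
    gn N (2 * π * (j0 + y) / 2 ^ D) (gk Rr L0 C fun j => 2 * π * (j + s j) / 2 ^ D)

def AtNum2Stmt : Prop := ∀ (R K D i : ℕ) (ω : ℕ × ℕ → ℕ), 1 ≤ R → 4 ≤ D → R * (K + 1) ≤ D →
  i * R ≤ D ^ 2 → (∀ k a, k ≤ D → ω (k, a) < 8000000 * (K + 1) * (D + 1)) →
  (∀ j, MM D (5 * D + 2 + i) ω j + (2 ^ D) ^ 2 * 2 ^ i ≤ 2 ^ (Ex K D + i)) ∧
  (∀ j, 2 ^ (5 * D + 2 + i) ∣ MM D (5 * D + 2 + i) ω j) ∧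
  (∀ j, |ss D (5 * D + 2 + i) ω j| ≤ 1 / (8 * ((2 : ℝ) ^ D) ^ 4 * 2 ^ i)) ∧
  2 * ((2 * (2 ^ D * 2 ^ (Ex K D + i)) : ℕ) : ℝ) ≤ Real.exp (25000000 * (D : ℝ) ^ 2 / R)

def At2 (R D i Z : ℕ) (a : AD) : Prop :=
  Sup a.g 0 a.Dg ∧
  (∀ j, ((2 : ℤ) ^ D) ^ 3 * 2 ^ i ≤ a.L j ∧ a.L j + ((2 : ℤ) ^ D) ^ 3 * 2 ^ i ≤ a.Dg) ∧
  (∀ k j, a.L k ≠ a.L j → 2 * (((2 : ℤ) ^ D) ^ 3 * 2 ^ i) ≤ |a.L k - a.L j|) ∧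
  (∀ x, ‖ev x a.g‖ ≤ a.H) ∧ (2 : ℝ) ^ i ≤ a.H ∧
  2 * a.H ≤ Real.exp (25000000 * (D : ℝ) ^ 2 / R) ∧
  LI (fun x => ‖ev x a.g‖) ≤ ENNReal.ofReal (2 * π) ∧
  (∀ j < 2 ^ D, 0 ≤ a.P j ∧ a.P j ≤ 2 ^ (R + 4) * D ∧ 0 ≤ a.Q j) ∧
  (2 : ℝ) ^ D * D / 4 ≤ ∑ j ∈ Finset.range (2 ^ D), a.P j ∧
  ∑ j ∈ Finset.range (2 ^ D), a.Q j ≤ (2 : ℝ) ^ D * D / 5000 ∧
  nm a.g ≤ 2 ^ Z ∧ a.Dg + 2 ≤ 2 ^ Z ∧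
  ∀ (η y : ℝ) (j0 : ℕ) (t : ℤ), 1 / 2 ^ D ≤ η → η ≤ y → y ≤ 1 - η → j0 < 2 ^ D →
    |t| ≤ ((2 : ℤ) ^ D) ^ 2 * 2 ^ i →
    a.P j0 / 51 - a.Q j0 / 3 - 40 * 2 ^ R / η ≤
      gn (a.L j0 + 2 ^ D * t) (2 * π * (j0 + y) / 2 ^ D) a.g

def AtomK2Stmt : Prop := ∀ R K i : ℕ, 1 ≤ R → R ≤ K → i * R ≤ DD R K ^ 2 →
  ∃ a : AD, At2 R (DD R K) i (DD R K + Ex K (DD R K) + i + 3) a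

def LevG2Stmt : Prop := ∀ (d : Dat) (a : AD) (F : TP) (h' : ℝ → ℝ) (R D i Z p l : ℕ) (al δ η : ℝ),
  Gain d → (∀ x, d.Y x ≤ l) → (∀ x, 0 ≤ d.Er x) → At2 R D i Z a → Sup F 0 a.Dg → 0 ≤ al → 0 ≤ δ →
  1 / 2 ^ D ≤ η → al * (40 * 2 ^ R / η) ≤ δ → (∀ j < 2 ^ D, al * a.P j / 51 ≤ 1) →
  (∀ (y : ℝ) (j0 : ℕ) (N : ℤ), η ≤ y → y ≤ 1 - η → j0 < 2 ^ D → 0 ≤ N → N ≤ d.Dg + 1 →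
    ∃ t : ℤ, |t| ≤ ((2 ^ D : ℕ) : ℤ) ^ 2 * 2 ^ i ∧
      gn N (((2 ^ D : ℕ) : ℝ) * p * (2 * π * (j0 + y) / (2 ^ D : ℕ))) d.c - 2 * δ ≤
        gn (a.L j0 + (2 ^ D : ℕ) * t) (2 * π * (j0 + y) / (2 ^ D : ℕ)) F) →
  Gain ⟨F + (al : ℂ) • a.g, a.Dg,
    fun x => d.Y (((2 ^ D : ℕ) : ℝ) * p * x) + al * a.P (cl (2 ^ D) x) / 51,
    fun x => d.Er (((2 ^ D : ℕ) : ℝ) * p * x) + al * a.Q (cl (2 ^ D) x) / 3 + 3 * δ +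
      ((l : ℝ) + 1) * (Ins (2 ^ D) η)ᶜ.indicator 1 x, h'⟩

def LevNumStmt : Prop := ∀ R l S : ℕ, 1 ≤ R → 2 ^ (4 * R + 80) * 4 ^ l ≤ S → ∃ K : ℕ, R ≤ K ∧
  8 * S * R ≤ DD R K ^ 2 ∧ DD R K + Ex K (DD R K) + 8 * S + 3 + 1 ≤ 4000000000 * S ∧
  5 * S + 2 + 2 * DD R K + 1 ≤ 4000000000 * S ∧ 40 * 2 ^ (2 * R + 31) * (l + 1) ≤ DD R K ∧
  R + 16 + l ≤ S ∧ R + 16 + l ≤ DD R K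

def Level2Stmt : Prop := ∀ (V ρ e κ : ℝ) (R l S : ℕ) (d : Dat), 0 ≤ V → 0 ≤ ρ → 0 ≤ e → 0 ≤ κ →
  1 ≤ R → Inv V l ρ e κ d → 2 ^ (4 * R + 80) * 4 ^ l ≤ S → V + 3 ≤ 2 ^ S → nm d.c ≤ 2 ^ S →
  d.Dg + 2 ≤ 2 ^ S →
  ∃ d' : Dat, Inv V (l + 1) (ρ * Real.exp (-((1 / 2) ^ R / 408))) (e + (1 / 2) ^ R / 500)
    (κ + 32000 * (1 / 2) ^ R / √(R : ℝ)) d' ∧
    nm d'.c ≤ 2 ^ (4000000000 * S) ∧ d'.Dg + 2 ≤ 2 ^ (4000000000 * S)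

def Iter2Stmt : Prop := ∀ (V : ℝ) (R l : ℕ), 0 ≤ V → 1 ≤ R → V + 3 ≤ 2 ^ (2 ^ (4 * R + 80)) →
  ∃ d : Dat, Inv V l (2 * π * Real.exp (-(l * (1 / 2) ^ R / 408))) (l * (1 / 2) ^ R / 500)
    (l * (32000 * (1 / 2) ^ R / √(R : ℝ))) d ∧
    nm d.c ≤ 2 ^ (2 ^ (4 * R + 80) * 4000000000 ^ l) ∧
    d.Dg + 2 ≤ 2 ^ (2 ^ (4 * R + 80) * 4000000000 ^ l)

noncomputable def eee (R : ℝ) : ℝ := Real.exp (Real.exp (Real.exp R))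

def SupNumStmt : Prop := ∀ T : ℕ, ∃ R0 : ℕ, ∀ R : ℕ, R0 ≤ R →
  (2 : ℝ) ^ (2 ^ (4 * R + 80) * 4000000000 ^ (816 * T * 2 ^ R) + 2) ≤ eee R

def Sup2Stmt : Prop := ∀ (V : ℝ) (T : ℕ), 0 ≤ V → 1 ≤ T → ∃ R0 : ℕ, ∀ R : ℕ, R0 ≤ R →
  ∃ b : Blk, Bk V (27000000 * T / √(R : ℝ)) ((T : ℝ) / 2) b ∧ 2 * (V + nm b.c) ≤ eee R

def Hyp2 (φ : ℝ → ℝ) : Prop :=
  MonotoneOn φ (Set.Ici 0) ∧ (∀ u, 0 ≤ u → 0 ≤ φ u) ∧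
  Tendsto (fun u => φ u / (u * √(Real.log u * Real.log (Real.log (Real.log u))))) atTop (𝓝 0)

def Q3 (ψ : ℝ → ℝ) : Prop :=
  MonotoneOn ψ (Set.Ici 0) ∧ (∀ u, 0 ≤ u → 0 ≤ ψ u) ∧
  ∀ ε : ℝ, 0 < ε → ∃ u0 : ℝ, 0 ≤ u0 ∧ ∀ R : ℕ, 1 ≤ R → ∀ u : ℝ, u0 ≤ u → u ≤ eee R →
    ψ u ≤ ε * √(R : ℝ) * Ph u

def PhiQStmt : Prop := ∀ φ : ℝ → ℝ, Hyp2 φ → Q3 fun u => φ (2 * u)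

def Ch2 (ψ : ℝ → ℝ) (b : ℕ → Blk) (W β κ : ℕ → ℝ) : Prop :=
  Ch b ∧ 0 ≤ W 0 ∧ ∀ r : ℕ, 0 ≤ β r ∧ 0 ≤ κ r ∧ ∑ s ∈ Finset.range r, nm (b s).c ≤ W r ∧
    W r + 1 ≤ W (r + 1) ∧ LI (b r).h ≤ ENNReal.ofReal (κ r) ∧
    (∑ s ∈ Finset.range (r + 1), β s) * κ r ≤ (1 / 2) ^ r ∧
    ∀ u : ℝ, 2 * W r ≤ u → u ≤ 2 * W (r + 1) → ψ u ≤ β r * Ph u

def Step2Stmt : Prop := ∀ ψ : ℝ → ℝ, Q3 ψ → ∃ u0 : ℕ → ℝ, (∀ r, 0 ≤ u0 r) ∧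
  ∀ (r : ℕ) (W Bs : ℝ), u0 r ≤ W → 0 ≤ Bs → ∃ (b : Blk) (W' β κ : ℝ),
    Bk W ((1 / 2) ^ r) r b ∧ 0 ≤ β ∧ 0 ≤ κ ∧ W + nm b.c + 1 ≤ W' ∧ u0 (r + 1) ≤ W' ∧
    LI b.h ≤ ENNReal.ofReal κ ∧ (Bs + β) * κ ≤ (1 / 2) ^ r ∧
    ∀ u : ℝ, 2 * W ≤ u → u ≤ 2 * W' → ψ u ≤ β * Ph u

def Seq2Stmt : Prop := ∀ ψ : ℝ → ℝ, Q3 ψ → ∃ (b : ℕ → Blk) (W β κ : ℕ → ℝ), Ch2 ψ b W β κ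

def TailStmt : Prop := ∀ (b : ℕ → Blk) (τ : ℕ → ℝ), Ch b → ∀ (x : ℝ) (r : ℕ),
  Summable (fun s => ‖fz b τ s x‖) →
  ENNReal.ofReal (Ph (∑' s, ‖fz b τ (s + r) x‖)) ≤
    ∑' s, ENNReal.ofReal ((b (s + r)).h (x - τ (s + r)))

def H5aStmt : Prop := ∀ (ψ : ℝ → ℝ) (b : ℕ → Blk) (W β κ τ : ℕ → ℝ), Q3 ψ → Ch2 ψ b W β κ →
  ∀ x : ℝ, ENNReal.ofReal (ψ ‖FF b τ x‖) ≤ ENNReal.ofReal (ψ (2 * W 0)) +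
    ∑' s, ENNReal.ofReal (3 * ∑ r ∈ Finset.range (s + 1), β r) *
      ENNReal.ofReal ((b s).h (x - τ s))

def H5Stmt : Prop := ∀ (ψ : ℝ → ℝ) (b : ℕ → Blk) (W β κ τ : ℕ → ℝ), Q3 ψ → Ch2 ψ b W β κ →
  LI (fun x => ψ ‖FF b τ x‖) < ⊤

end Vale.Agent.P091Q
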