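import Vale.Agent.P091Q.Stm

namespace Vale.Agent.P091Q

open MeasureTheory Real Filter Topology Vale.Agent.P091 Vale.Agent.P091K

namespace TailAux

theorem norm_fz (b : ℕ → Blk) (τ : ℕ → ℝ) (r : ℕ) (x : ℝ) :
    ‖fz b τ r x‖ = ‖ev (x - τ r) (b r).c‖ := by
  rw [fz, norm_mul, norm_E, one_mul]

theorem part (b : ℕ → Blk) (τ : ℕ → ℝ) (hb : Ch b) (x : ℝ) (r k : ℕ) :
    Ph (∑ s ∈ Finset.range k, ‖fz b τ (s + r) x‖) ≤
      ∑ s ∈ Finset.range k, (b (s + r)).h (x - τ (s + r)) := by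
  induction k with
  | zero => simp [Ph]
  | succ k ih =>
    rw [Finset.sum_range_succ, Finset.sum_range_succ, norm_fz b τ (k + r)]
    have h1 : ∑ s ∈ Finset.range k, ‖fz b τ (s + r) x‖ ≤
        ∑ s ∈ Finset.range (k + r), nm (b s).c := by
      rw [add_comm k r, Finset.sum_range_add]
      have h2 : 0 ≤ ∑ s ∈ Finset.range r, nm (b s).c :=
        Finset.sum_nonneg fun s _ => (norm_nonneg _).trans (norm_ev_le 0 _)
      have h3 : ∑ s ∈ Finset.range k, ‖fz b τ (s + r) x‖ ≤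
          ∑ s ∈ Finset.range k, nm (b (r + s)).c :=
        Finset.sum_le_sum fun s _ => by rw [norm_fz, add_comm r s]; exact norm_ev_le _ _
      linarith
    have hc := (hb (k + r)).2.2.2.1 (∑ s ∈ Finset.range k, ‖fz b τ (s + r) x‖) (x - τ (k + r))
      (Finset.sum_nonneg fun _ _ => norm_nonneg _) h1
    linarith

end TailAux

theorem tail_pf (h : PhiLStmt) : TailStmt := by
  intro b τ hb x r hs
  obtain ⟨-, -, hc, -⟩ := h
  have ha : Summable fun s => ‖fz b τ (s + r) x‖ :=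
    (summable_nat_add_iff (f := fun s => ‖fz b τ s x‖) r).2 hs
  have t0 : 0 ≤ ∑' s, ‖fz b τ (s + r) x‖ := tsum_nonneg fun _ => norm_nonneg _
  have hlim : Tendsto (fun k => ∑ s ∈ Finset.range k, ‖fz b τ (s + r) x‖) atTop
      (𝓝[Set.Ici 0] (∑' s, ‖fz b τ (s + r) x‖)) :=
    tendsto_nhdsWithin_iff.2 ⟨ha.hasSum.tendsto_sum_nat,
      Eventually.of_forall fun k => Finset.sum_nonneg fun _ _ => norm_nonneg _⟩
  refine le_of_tendsto'
    ((ENNReal.continuous_ofReal.tendsto _).comp ((hc _ t0).tendsto.comp hlim)) fun k => ?_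
  refine (ENNReal.ofReal_le_ofReal (TailAux.part b τ hb x r k)).trans ?_
  rw [ENNReal.ofReal_sum_of_nonneg fun s _ => (hb (s + r)).2.1.2.2 _]
  exact ENNReal.sum_le_tsum _

end Vale.Agent.P091Q
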